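import Mathlib

/-! The shift space with Haar measure, Walsh functions and the ping-pong inequality. -/

namespace Vale.Agent.P189.Bn

open MeasureTheory

/-- ping-pong inequality for a free action of the free group -/
theorem pingpong {I : Type} [MulAction (FreeGroup Bool) I] (P : Set I)
    (free : ∀ T ∈ P, ∀ g : FreeGroup Bool, g • T = T → g = 1)
    (inv : ∀ (g : FreeGroup Bool) (T : I), g • T ∈ P → T ∈ P)
    (u : I → ℝ) (hu : (Function.support u).Finite) :
    ∑' T, P.indicator (fun T => u T ^ 2) T ≤
      6 * (∑' T, (u (FreeGroup.of true • T) - u T) ^ 2 +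
        ∑' T, (u (FreeGroup.of false • T) - u T) ^ 2) := by
  classical
  let rel := MulAction.orbitRel (FreeGroup Bool) I
  let rep : I → I := fun T => (Quotient.mk rel T).out
  have hrep : ∀ T, ∃ g : FreeGroup Bool, g • rep T = T := fun T =>
    rel.symm (Quotient.mk_out (s := rel) T)
  choose γ hγ using hrep
  have hrs : ∀ (g : FreeGroup Bool) T, rep (g • T) = rep T := by
    intro g T
    have : Quotient.mk rel (g • T) = Quotient.mk rel T := Quotient.sound ⟨g, rfl⟩
    simp only [rep, this]
  have hγs : ∀ (g : FreeGroup Bool), ∀ T ∈ P, γ (g • T) = g * γ T := by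
    intro g T hT
    have h1 : rep T ∈ P := inv (γ T) _ (by rw [hγ]; exact hT)
    have h2 := hγ (g • T)
    rw [hrs] at h2
    have h3 : ((g * γ T)⁻¹ * γ (g • T)) • rep T = rep T := by
      rw [mul_smul, h2, inv_smul_eq_iff, mul_smul, hγ]
    have h4 := free _ h1 _ h3
    rw [inv_mul_eq_one] at h4
    exact h4.symm
  let W : Bool × Bool → Set I := fun d => {T | T ∈ P ∧ γ T ∈ FreeGroup.startsWith d}
  let v : I → ℝ := fun T => u T ^ 2
  have hv0 : ∀ T, 0 ≤ v T := fun T => sq_nonneg _
  have hsum : ∀ (f : I → ℝ), (∀ T, u T = 0 → f T = 0) → Summable f := fun f hf =>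
    summable_of_hasFiniteSupport (hu.subset (fun T hT h => hT (hf T h)))
  have hsi : ∀ A : Set I, Summable (A.indicator v) := fun A =>
    (hsum v (fun T h => by simp [v, h])).indicator A
  have hsd : ∀ g : FreeGroup Bool, Summable (fun T => (u (g • T) - u T) ^ 2) := by
    intro g
    refine summable_of_hasFiniteSupport ((hu.union
      (hu.preimage (f := fun T => g • T) (MulAction.injective g).injOn)).subset ?_)
    intro T hT
    by_contra h
    simp only [Set.mem_union, Function.mem_support, Set.mem_preimage, not_or, not_not] at h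
    exact hT (by simp [h.1, h.2])
  have key : ∀ s : Bool, ∑' T, P.indicator v T ≤ 3 / 2 * (∑' T, (W (s, false)).indicator v T +
      ∑' T, (W (s, true)).indicator v T) + 3 * ∑' T, (u (FreeGroup.of s • T) - u T) ^ 2 := by
    intro s
    have e1 : ∑' T, (W (s, true)).indicator v T =
        ∑' T, (W (s, true)).indicator v (FreeGroup.of s • T) :=
      (Equiv.tsum_eq (MulAction.toPerm (FreeGroup.of s) : Equiv.Perm I)
        ((W (s, true)).indicator v)).symm
    have s1 : Summable (fun T => (W (s, true)).indicator v (FreeGroup.of s • T)) :=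
      (Equiv.summable_iff (MulAction.toPerm (FreeGroup.of s) : Equiv.Perm I)
        (f := (W (s, true)).indicator v)).2 (hsi _)
    rw [e1, ← (hsi _).tsum_add s1, ← tsum_mul_left, ← tsum_mul_left,
      ← (((hsi _).add s1).mul_left _).tsum_add ((hsd _).mul_left _)]
    refine (hsi _).tsum_le_tsum (fun T => ?_)
      ((((hsi _).add s1).mul_left _).add ((hsd _).mul_left _))
    have n1 : 0 ≤ (W (s, false)).indicator v T := Set.indicator_nonneg (fun T _ => hv0 T) _
    have n2 : 0 ≤ (W (s, true)).indicator v (FreeGroup.of s • T) :=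
      Set.indicator_nonneg (fun T _ => hv0 T) _
    have n3 := sq_nonneg (u (FreeGroup.of s • T) - u T)
    by_cases hT : T ∈ P
    · rw [Set.indicator_of_mem hT]
      by_cases h1 : γ T ∈ FreeGroup.startsWith (s, false)
      · rw [Set.indicator_of_mem (show T ∈ W (s, false) from ⟨hT, h1⟩)]
        have := hv0 T
        linarith
      · have h2 : FreeGroup.of s • T ∈ W (s, true) := by
          refine ⟨inv (FreeGroup.of s)⁻¹ _ (by rwa [inv_smul_smul]), ?_⟩
          rw [hγs _ _ hT]
          exact FreeGroup.startsWith_mk_mul (w := (s, true)) _ h1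
        rw [Set.indicator_of_mem h2]
        simp only [v]
        nlinarith [sq_nonneg (3 * u (FreeGroup.of s • T) - 2 * u T)]
    · rw [Set.indicator_of_notMem hT]
      linarith
  have tot : ∑' T, (W (true, false)).indicator v T + ∑' T, (W (true, true)).indicator v T +
      (∑' T, (W (false, false)).indicator v T + ∑' T, (W (false, true)).indicator v T) ≤
      ∑' T, P.indicator v T := by
    rw [← (hsi _).tsum_add (hsi _), ← (hsi _).tsum_add (hsi _),
      ← ((hsi _).add (hsi _)).tsum_add ((hsi _).add (hsi _))]
    refine (((hsi _).add (hsi _)).add ((hsi _).add (hsi _))).tsum_le_tsum (fun T => ?_) (hsi _)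
    by_cases hT : T ∈ P
    · have := hv0 T
      have hW : ∀ d, T ∈ W d ↔ (γ T).toWord[0]? = some d := fun d =>
        ⟨fun h => h.2, fun h => ⟨hT, h⟩⟩
      simp only [Set.indicator_apply, hW, hT, if_true]
      generalize (γ T).toWord[0]? = o
      rcases o with _ | ⟨_ | _, _ | _⟩ <;> simp [this]
    · have hW : ∀ d, T ∉ W d := fun d h => hT h.1
      simp [Set.indicator_of_notMem, hW, hT]
  have k1 := key true
  have k2 := key false
  linarith

variable {G : Type}

/-- the configuration space -/
abbrev X (G : Type) : Type := G → ZMod 2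

/-- the sign character -/
def sg (a : ZMod 2) : ℝ := if a = 0 then 1 else -1

theorem z2 (a : ZMod 2) : a = 0 ∨ a = 1 := by revert a; decide

theorem sg_add (a b : ZMod 2) : sg (a + b) = sg a * sg b := by
  have h : (1 + 1 : ZMod 2) = 0 := rfl
  rcases z2 a with rfl | rfl <;> rcases z2 b with rfl | rfl <;> simp [sg, h]

theorem sg_sq (a : ZMod 2) : sg a * sg a = 1 := by
  unfold sg; split_ifs <;> norm_num

theorem sg_zero : sg 0 = 1 := by simp [sg]

theorem sg_one : sg 1 = -1 := by simp [sg]

/-- Walsh functions -/
def w (S : Finset G) (x : X G) : ℝ := ∏ n ∈ S, sg (x n)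

theorem w_cont (S : Finset G) : Continuous (w S) :=
  continuous_finsetProd _ (fun n _ => (continuous_of_discreteTopology (f := sg)).comp
    (continuous_apply n))

theorem w_mul [DecidableEq G] (S T : Finset G) (x : X G) :
    w S x * w T x = w (symmDiff S T) x := by
  have h1 : w S x = w (S \ T) x * w (S ∩ T) x := by
    unfold w
    rw [← Finset.prod_union (Finset.disjoint_sdiff_inter S T), Finset.sdiff_union_inter]
  have h2 : w T x = w (T \ S) x * w (S ∩ T) x := by
    unfold w
    rw [Finset.inter_comm, ← Finset.prod_union (Finset.disjoint_sdiff_inter T S),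
      Finset.sdiff_union_inter]
  have h3 : w (S ∩ T) x * w (S ∩ T) x = 1 := by
    unfold w
    rw [← Finset.prod_mul_distrib]
    simp [sg_sq]
  have h4 : w (symmDiff S T) x = w (S \ T) x * w (T \ S) x := by
    unfold w
    rw [symmDiff_def, Finset.sup_eq_union, Finset.prod_union disjoint_sdiff_sdiff]
  rw [h1, h2, h4]
  linear_combination (w (S \ T) x * w (T \ S) x) * h3

theorem w_flip [DecidableEq G] {S : Finset G} {n : G} (hn : n ∈ S) (x : X G) :
    w S (x + Pi.single n 1) = -w S x := by
  have : w S (Pi.single n 1) = -1 := by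
    unfold w
    rw [Finset.prod_eq_single n, Pi.single_eq_same, sg_one]
    · intro b _ hb
      rw [Pi.single_eq_of_ne hb, sg_zero]
    · intro h; exact absurd hn h
  have h2 : w S (x + Pi.single n 1) = w S x * w S (Pi.single n 1) := by
    unfold w
    rw [← Finset.prod_mul_distrib]
    simp only [Pi.add_apply, sg_add]
  rw [h2, this]; ring

variable [Countable G]

/-- the Haar probability measure -/
noncomputable def μ (G : Type) [Countable G] : Measure (X G) := Measure.addHaarMeasure ⊤

instance : (μ G).IsAddHaarMeasure := by unfold μ; infer_instance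

instance : IsProbabilityMeasure (μ G) :=
  ⟨by
    have := Measure.addHaarMeasure_self (K₀ := (⊤ : TopologicalSpace.PositiveCompacts (X G)))
    rwa [TopologicalSpace.PositiveCompacts.coe_top] at this⟩

theorem integrable_cont {f : X G → ℝ} (hf : Continuous f) : Integrable f (μ G) :=
  hf.integrable_of_hasCompactSupport (HasCompactSupport.of_compactSpace f)

theorem int_w [DecidableEq G] (S : Finset G) :
    ∫ x, w S x ∂(μ G) = if S = ∅ then 1 else 0 := by
  split_ifs with h
  · simp [h, w]
  · obtain ⟨n, hn⟩ := Finset.nonempty_iff_ne_empty.2 h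
    have := integral_add_right_eq_self (μ := μ G) (w S) (Pi.single n 1)
    simp only [w_flip hn, integral_neg] at this
    linarith

/-- finite Walsh sums -/
noncomputable def Φ : (Finset G →₀ ℝ) →ₗ[ℝ] (X G → ℝ) := Finsupp.linearCombination ℝ w

omit [Countable G] in
theorem Φ_apply (c : Finset G →₀ ℝ) (x : X G) : Φ c x = ∑ S ∈ c.support, c S * w S x := by
  simp [Φ, Finsupp.linearCombination_apply, Finsupp.sum, Finset.sum_apply]

omit [Countable G] in
theorem Φ_cont (c : Finset G →₀ ℝ) : Continuous (Φ c) := by
  have : Φ c = fun x => ∑ S ∈ c.support, c S * w S x := funext (Φ_apply c)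
  rw [this]
  exact continuous_finsetSum _ (fun S _ => continuous_const.mul (w_cont S))

theorem int_Φ_w (c : Finset G →₀ ℝ) (T : Finset G) : ∫ x, Φ c x * w T x ∂(μ G) = c T := by
  classical
  simp only [Φ_apply, Finset.sum_mul, mul_assoc, w_mul]
  rw [integral_finsetSum _ (fun S _ => integrable_cont (continuous_const.fun_mul (w_cont _)))]
  simp only [integral_const_mul, int_w, ← Finset.bot_eq_empty, symmDiff_eq_bot]
  simp only [mul_ite, mul_one, mul_zero, Finset.sum_ite_eq']
  split_ifs with h
  · rfl
  · exact (Finsupp.notMem_support_iff.1 h).symm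

theorem parseval (c : Finset G →₀ ℝ) : ∫ x, Φ c x ^ 2 ∂(μ G) = ∑' S, c S ^ 2 := by
  rw [tsum_eq_sum (s := c.support) (fun S hS => by rw [Finsupp.notMem_support_iff.1 hS]; simp)]
  have : ∀ x, Φ c x ^ 2 = ∑ S ∈ c.support, c S * (Φ c x * w S x) := by
    intro x
    rw [sq]
    conv_lhs => rw [Φ_apply c x, Finset.sum_mul]
    refine Finset.sum_congr rfl (fun S _ => ?_)
    rw [← Φ_apply]; ring
  simp only [this]
  rw [integral_finsetSum _
    (fun S _ => integrable_cont (continuous_const.fun_mul ((Φ_cont c).fun_mul (w_cont _))))]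
  simp only [integral_const_mul, int_Φ_w, sq]

omit [Countable G] in
theorem range_mul {f g : X G → ℝ} (hf : f ∈ LinearMap.range (Φ (G := G)))
    (hg : g ∈ LinearMap.range (Φ (G := G))) : f * g ∈ LinearMap.range (Φ (G := G)) := by
  classical
  obtain ⟨c, rfl⟩ := hf
  obtain ⟨d, rfl⟩ := hg
  have : Φ c * Φ d = ∑ S ∈ c.support, ∑ T ∈ d.support, (c S * d T) • w (symmDiff S T) := by
    funext x
    simp only [Pi.mul_apply, Φ_apply, Finset.sum_mul_sum, Finset.sum_apply, Pi.smul_apply,
      smul_eq_mul, ← w_mul]
    refine Finset.sum_congr rfl (fun S _ => Finset.sum_congr rfl (fun T _ => by ring))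
  rw [this]
  refine Submodule.sum_mem _ (fun S _ => Submodule.sum_mem _ (fun T _ => Submodule.smul_mem _ _ ?_))
  exact ⟨Finsupp.single (symmDiff S T) 1, by simp [Φ]⟩

/-- every measurable set is close to a set whose indicator is a finite Walsh sum -/
theorem approx {B : Set (X G)} (hB : MeasurableSet B) {ε : ENNReal} (hε : 0 < ε) :
    ∃ (B' : Set (X G)) (c : Finset G →₀ ℝ), MeasurableSet B' ∧ Φ c = B'.indicator 1 ∧
      μ G (symmDiff B' B) < ε := by
  classical
  let C : Set (Set (X G)) := {B' | B'.indicator 1 ∈ LinearMap.range (Φ (G := G))}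
  have hw : ∀ S, w S ∈ LinearMap.range (Φ (G := G)) := fun S =>
    ⟨Finsupp.single S 1, by simp [Φ]⟩
  have hm : ∀ B' ∈ C, MeasurableSet B' := by
    rintro B' ⟨c, hc⟩
    have : B' = Φ c ⁻¹' {1} := by
      ext x
      by_cases hx : x ∈ B' <;> simp [hc, hx]
    rw [this]
    exact (Φ_cont c).measurable (measurableSet_singleton 1)
  have hu : Set.univ ∈ C := by
    have : (Set.univ : Set (X G)).indicator (1 : X G → ℝ) = w ∅ := by
      funext x; simp [w]
    show _ ∈ LinearMap.range _
    rw [this]; exact hw _
  have hR : IsSetRing C := by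
    refine ⟨⟨0, by funext x; simp⟩, fun s t hs ht => ?_, fun s t hs ht => ?_⟩
    · have : (s ∪ t).indicator (1 : X G → ℝ) =
          s.indicator 1 + t.indicator 1 - s.indicator 1 * t.indicator 1 := by
        funext x
        by_cases h1 : x ∈ s <;> by_cases h2 : x ∈ t <;> simp [h1, h2]
      show _ ∈ LinearMap.range _
      rw [this]
      exact Submodule.sub_mem _ (Submodule.add_mem _ hs ht) (range_mul hs ht)
    · have : (s \ t).indicator (1 : X G → ℝ) =
          s.indicator 1 - s.indicator 1 * t.indicator 1 := by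
        funext x
        by_cases h1 : x ∈ s <;> by_cases h2 : x ∈ t <;> simp [h1, h2]
      show _ ∈ LinearMap.range _
      rw [this]
      exact Submodule.sub_mem _ hs (range_mul hs ht)
  have hgen : (inferInstance : MeasurableSpace (X G)) = MeasurableSpace.generateFrom C := by
    refine le_antisymm ?_ (MeasurableSpace.generateFrom_le hm)
    have : Measurable[MeasurableSpace.generateFrom C] (id : X G → X G) := by
      refine @measurable_pi_lambda _ _ _ (MeasurableSpace.generateFrom C) _ _ (fun n => ?_)
      refine @measurable_to_countable' _ _ _ _ (MeasurableSpace.generateFrom C) _ (fun a => ?_)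
      refine MeasurableSpace.measurableSet_generateFrom ?_
      have : ((fun x : X G => id x n) ⁻¹' {a}).indicator (1 : X G → ℝ) =
          (1 / 2 : ℝ) • (w ∅ + sg a • w {n}) := by
        funext x
        simp only [Set.indicator_apply, Set.mem_preimage, id, Set.mem_singleton_iff, Pi.smul_apply,
          Pi.add_apply, w, Finset.prod_empty, Finset.prod_singleton, smul_eq_mul, Pi.one_apply]
        generalize x n = b
        rcases z2 a with rfl | rfl <;> rcases z2 b with rfl | rfl <;> simp [sg] <;> norm_num
      show _ ∈ LinearMap.range _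
      rw [this]
      exact Submodule.smul_mem _ _ (Submodule.add_mem _ (hw _) (Submodule.smul_mem _ _ (hw _)))
    exact fun s hs => this hs
  obtain ⟨t, ⟨c, hc⟩, ht⟩ := exists_measure_symmDiff_lt_of_generateFrom_isSetRing (μ := μ G) hR
    ⟨{Set.univ}, Set.countable_singleton _, Set.singleton_subset_iff.2 hu, by simp⟩ hgen hB hε
  exact ⟨t, c, hm t ⟨c, hc⟩, hc, ht⟩

end Vale.Agent.P189.Bn
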