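import Vale.Agent.P189.Defs
import Vale.Agent.P189.BernA

/-! The Bernoulli action of a countable torsion free group. -/

namespace Vale.Agent.P189

open MeasureTheory

variable {G : Type} [Group G]

/-- the space is covered by countably many measurable sets of small measure -/
def PmpAction.SmallCover (a : PmpAction G) : Prop :=
  ∀ η : ENNReal, 0 < η → ∃ E : ℕ → Set a.X, (∀ j, MeasurableSet (E j)) ∧ (∀ j, a.μ (E j) ≤ η) ∧
    ∀ x, ∃ j, x ∈ E j

/-- uniform expansion for every free subgroup of rank two -/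
def PmpAction.Gap (a : PmpAction G) : Prop :=
  ∀ ι : FreeGroup Bool →* G, Function.Injective ι → ∀ B : Set a.X, MeasurableSet B →
    1 / 4 ≤ a.μ B → a.μ B ≤ 3 / 4 →
      ∃ s : Bool, 1 / 200 ≤ a.μ {x | ¬ (x ∈ B ↔ a.act x (ι (FreeGroup.of s)) ∈ B)}

namespace Bn

/-- the shift as an additive homomorphism -/
def sh (g : G) : X G →+ X G where
  toFun x := fun n => x (g * n)
  map_zero' := rfl
  map_add' _ _ := rfl

theorem sh_cont (g : G) : Continuous (sh g) :=
  continuous_pi (fun n => continuous_apply (g * n))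

theorem sh_pres [Countable G] (g : G) : MeasurePreserving (sh g) (μ G) (μ G) :=
  AddMonoidHom.measurePreserving (sh_cont g)
    (fun y => ⟨fun n => y (g⁻¹ * n), by funext n; simp [sh]⟩) rfl

/-- the Bernoulli action -/
noncomputable def ber (G : Type) [Group G] [Countable G] : PmpAction G where
  X := X G
  μ := μ G
  act x g := sh g x
  act_one x := by funext n; simp [sh]
  act_mul x g h := by funext n; simp [sh, mul_assoc]
  pres := sh_pres

omit [Group G] in
theorem null_of_translates [Countable G] [Infinite G] [DecidableEq G] {A : Set (X G)}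
    (hA : MeasurableSet A)
    (h : ∀ n m : G, n ≠ m → ∀ y : X G, y + Pi.single n 1 ∈ A → y + Pi.single m 1 ∈ A → False) :
    μ G A = 0 := by
  by_contra h0
  have hd : Pairwise (Function.onFun Disjoint
      (fun n : G => (fun y : X G => y + Pi.single n 1) ⁻¹' A)) :=
    fun n m hnm => Set.disjoint_left.2 (fun y h1 h2 => h n m hnm y h1 h2)
  have := measure_iUnion (μ := μ G) hd (fun n => measurable_add_const _ hA)
  simp only [measure_preimage_add_right] at this
  rw [ENNReal.tsum_const_eq_top_of_ne_zero h0] at this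
  exact measure_ne_top _ _ this

theorem ber_free [Countable G] [Infinite G]
    (tf : ∀ g : G, g ≠ 1 → ∀ n : ℕ, n ≠ 0 → g ^ n ≠ 1) : (ber G).EssFree := by
  classical
  intro g hg
  refine null_of_translates (A := {x | sh g x = x})
    (isClosed_eq (sh_cont g) continuous_id).measurableSet ?_
  intro n m hnm y h1 h2
  have h3 : ∀ k, (Pi.single n 1 : X G) (g * k) - (Pi.single m 1 : X G) (g * k) =
      (Pi.single n 1 : X G) k - (Pi.single m 1 : X G) k := by
    intro k
    have e1 := congrFun h1 k
    have e2 := congrFun h2 k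
    simp only [sh, AddMonoidHom.coe_mk, ZeroHom.coe_mk, Pi.add_apply] at e1 e2
    linear_combination e1 - e2
  have hne : ∀ k, g * k ≠ k := fun k e => hg (by simpa using e)
  have a1 : g * n = m := by
    by_contra hc
    have := h3 n
    rw [Pi.single_eq_of_ne (hne n), Pi.single_eq_of_ne hc, Pi.single_eq_same,
      Pi.single_eq_of_ne hnm] at this
    simp at this
  have a2 : g * m = n := by
    by_contra hc
    have := h3 m
    rw [Pi.single_eq_of_ne (hne m), Pi.single_eq_of_ne hc, Pi.single_eq_same,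
      Pi.single_eq_of_ne hnm.symm] at this
    simp at this
  refine tf g hg 2 (by norm_num) ?_
  rw [← a1, ← mul_assoc] at a2
  rw [sq]
  simpa using a2

theorem ber_small [Countable G] [Infinite G] : (ber G).SmallCover := by
  classical
  intro η hη
  have h1 : ∀ x : X G, ∃ U ⊇ {x}, IsOpen U ∧ μ G U < η := by
    intro x
    refine Set.exists_isOpen_lt_of_lt _ _ ?_
    rw [null_of_translates (measurableSet_singleton x)]
    · exact hη
    · intro n m hnm y e1 e2
      have := congrFun (add_left_cancel (e1.trans e2.symm)) n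
      rw [Pi.single_eq_same, Pi.single_eq_of_ne hnm] at this
      exact one_ne_zero this
  choose U hU hUo hUm using h1
  obtain ⟨s, hs, hc⟩ := TopologicalSpace.countable_cover_nhds
    (f := U) (fun x => (hUo x).mem_nhds (hU x rfl))
  have hne : s.Nonempty := by
    have : (0 : X G) ∈ ⋃ x ∈ s, U x := hc ▸ Set.mem_univ _
    obtain ⟨x, hx, -⟩ := Set.mem_iUnion₂.1 this
    exact ⟨x, hx⟩
  obtain ⟨e, rfl⟩ := hs.exists_eq_range hne
  refine ⟨fun j => U (e j), fun j => (hUo _).measurableSet, fun j => (hUm _).le, fun x => ?_⟩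
  have : x ∈ ⋃ y ∈ Set.range e, U y := hc ▸ Set.mem_univ _
  obtain ⟨_, ⟨j, rfl⟩, hx⟩ := Set.mem_iUnion₂.1 this
  exact ⟨j, hx⟩

open Pointwise in
theorem smul_free [DecidableEq G] (tf : ∀ g : G, g ≠ 1 → ∀ n : ℕ, n ≠ 0 → g ^ n ≠ 1)
    {S : Finset G} (hS : S.Nonempty) {g : G} (h : g • S = S) : g = 1 := by
  by_contra hg
  obtain ⟨a, ha⟩ := hS
  have h1 : ∀ k : ℕ, g ^ k * a ∈ S := by
    intro k
    induction k with
    | zero => simpa using ha
    | succ k ih =>
      rw [pow_succ', mul_assoc, ← h]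
      exact Finset.smul_mem_smul_finset ih
  obtain ⟨i, j, hij, e⟩ := Finite.exists_ne_map_eq_of_infinite (fun k : ℕ => (⟨_, h1 k⟩ : S))
  have e' : g ^ i = g ^ j := mul_right_cancel (congrArg Subtype.val e)
  rcases lt_or_gt_of_ne hij with hlt | hlt
  · refine tf g hg (j - i) (by omega) ?_
    rw [pow_sub _ hlt.le, ← e', mul_inv_cancel]
  · refine tf g hg (i - j) (by omega) ?_
    rw [pow_sub _ hlt.le, e', mul_inv_cancel]

open Pointwise in
theorem Φ_sh [DecidableEq G] (c : Finset G →₀ ℝ) (g : G) (x : X G) :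
    Φ (Finsupp.equivMapDomain (MulAction.toPerm g : Equiv.Perm (Finset G)) c) x =
      Φ c (sh g x) := by
  rw [Φ, Finsupp.linearCombination_equivMapDomain]
  have : ∀ S : Finset G, w (g • S) x = w S (sh g x) := by
    intro S
    unfold w
    rw [Finset.smul_finset_def, Finset.prod_image (fun a _ b _ h => MulAction.injective g h)]
    rfl
  simp [Finsupp.linearCombination_apply, Finsupp.sum, Finset.sum_apply, this]

open Pointwise in
/-- the displacement of a set with a finite Walsh expansion -/
theorem disp [Countable G] [DecidableEq G] {B : Set (X G)} (hB : MeasurableSet B)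
    (c : Finset G →₀ ℝ) (hc : Φ c = B.indicator 1) (g : G) :
    (μ G).real {x | ¬ (x ∈ B ↔ sh g x ∈ B)} = ∑' T, (c (g • T) - c T) ^ 2 := by
  have hm : MeasurableSet {x | ¬ (x ∈ B ↔ sh g x ∈ B)} := by
    exact (MeasurableSet.iff hB ((sh_cont g).measurable hB)).compl
  have h1 := parseval (c - Finsupp.equivMapDomain (MulAction.toPerm g : Equiv.Perm (Finset G)) c)
  have h2 : ∀ x, Φ (c - Finsupp.equivMapDomain (MulAction.toPerm g : Equiv.Perm (Finset G)) c) x ^ 2
      = {x | ¬ (x ∈ B ↔ sh g x ∈ B)}.indicator 1 x := by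
    intro x
    rw [map_sub, Pi.sub_apply, Φ_sh, hc]
    by_cases h1 : x ∈ B <;> by_cases h2 : sh g x ∈ B <;> simp [h1, h2]
  simp only [h2] at h1
  rw [integral_indicator_one hm] at h1
  rw [h1, ← Equiv.tsum_eq (MulAction.toPerm g : Equiv.Perm (Finset G))]
  simp

open Pointwise in
theorem ber_gap [Countable G] (tf : ∀ g : G, g ≠ 1 → ∀ n : ℕ, n ≠ 0 → g ^ n ≠ 1)
    (ι : FreeGroup Bool →* G) (hι : Function.Injective ι) (B : Set (X G)) (hB : MeasurableSet B)
    (h1 : 1 / 4 ≤ μ G B) (h2 : μ G B ≤ 3 / 4) :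
    ∃ s : Bool, 1 / 200 ≤ μ G {x | ¬ (x ∈ B ↔ sh (ι (FreeGroup.of s)) x ∈ B)} := by
  classical
  by_contra hcon
  simp only [not_exists, not_le] at hcon
  obtain ⟨B', c, hB', hc, hd⟩ := approx (G := G) hB (ε := ENNReal.ofReal (1 / 1000)) (by simp)
  have hd' : (μ G).real (symmDiff B' B) < 1 / 1000 :=
    ENNReal.toReal_lt_of_lt_ofReal hd
  let : MulAction (FreeGroup Bool) (Finset G) := MulAction.compHom (Finset G) ι
  have pp := pingpong (I := Finset G) {S | S.Nonempty}
    (fun T hT g h => hι (by rw [map_one]; exact smul_free tf hT h))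
    (fun g T h => Finset.smul_finset_nonempty.1 h) c c.hasFiniteSupport
  have e0 : (μ G).real B' = c ∅ := by
    have := int_Φ_w c ∅
    simp only [w, Finset.prod_empty, mul_one, hc] at this
    rwa [integral_indicator_one hB'] at this
  have e1 : (μ G).real B' = ∑' S, c S ^ 2 := by
    have := parseval c
    have h3 : ∀ x, Φ c x ^ 2 = B'.indicator 1 x := by
      intro x
      rw [hc]
      by_cases h : x ∈ B' <;> simp [h]
    simp only [h3] at this
    rwa [integral_indicator_one hB'] at this
  have e2 : ∑' S, c S ^ 2 =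
      c ∅ ^ 2 + ∑' S, {S : Finset G | S.Nonempty}.indicator (fun T => c T ^ 2) S := by
    have hs : Summable (fun S => c S ^ 2) :=
      summable_of_hasFiniteSupport (c.hasFiniteSupport.subset (fun T hT h => hT (by simp [h])))
    rw [hs.tsum_eq_add_tsum_ite ∅]
    congr 1
    refine tsum_congr (fun S => ?_)
    by_cases h : S = ∅
    · simp [h]
    · simp [h, Finset.nonempty_iff_ne_empty]
  have e3 : ∀ s : Bool, ∑' T, (c (FreeGroup.of s • T) - c T) ^ 2 ≤ 1 / 200 + 2 / 1000 := by
    intro s
    have a1 := disp hB' c hc (ι (FreeGroup.of s))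
    have a2 : (μ G).real {x | ¬ (x ∈ B ↔ sh (ι (FreeGroup.of s)) x ∈ B)} ≤ 1 / 200 := by
      have := ENNReal.toReal_mono (by simp) (hcon s).le
      simpa [Measure.real] using this
    have a3 : (μ G).real (sh (ι (FreeGroup.of s)) ⁻¹' symmDiff B' B) = (μ G).real (symmDiff B' B) :=
      (sh_pres _).measureReal_preimage (hB'.symmDiff hB).nullMeasurableSet
    have a4 : {x | ¬ (x ∈ B' ↔ sh (ι (FreeGroup.of s)) x ∈ B')} ⊆
        {x | ¬ (x ∈ B ↔ sh (ι (FreeGroup.of s)) x ∈ B)} ∪ symmDiff B' B ∪
          sh (ι (FreeGroup.of s)) ⁻¹' symmDiff B' B := by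
      intro x hx
      simp only [Set.mem_union, Set.mem_ofPred_eq, Set.mem_preimage, Set.mem_symmDiff] at hx ⊢
      tauto
    have a5 := (measureReal_mono a4 (μ := μ G)).trans (measureReal_union_le _ _)
    have a6 := measureReal_union_le (μ := μ G)
      {x | ¬ (x ∈ B ↔ sh (ι (FreeGroup.of s)) x ∈ B)} (symmDiff B' B)
    refine le_of_eq_of_le a1.symm ?_
    linarith
  have b1 : 1 / 4 ≤ (μ G).real B := by
    have := ENNReal.toReal_mono (measure_ne_top _ _) h1
    simpa [Measure.real] using this
  have b2 : (μ G).real B ≤ 3 / 4 := by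
    have := ENNReal.toReal_mono (by simp [ENNReal.div_eq_top]) h2
    simpa [Measure.real] using this
  have b3 : (μ G).real B ≤ (μ G).real B' + (μ G).real (symmDiff B' B) :=
    (measureReal_mono (fun x hx => by
      simp only [Set.mem_union, Set.mem_symmDiff]; tauto)).trans (measureReal_union_le _ _)
  have b4 : (μ G).real B' ≤ (μ G).real B + (μ G).real (symmDiff B' B) :=
    (measureReal_mono (fun x hx => by
      simp only [Set.mem_union, Set.mem_symmDiff]; tauto)).trans (measureReal_union_le _ _)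
  have c1 := e3 true
  have c2 := e3 false
  rw [← e0, ← e1] at e2
  nlinarith

end Bn

theorem exists_bernoulli [Countable G] [Infinite G]
    (tf : ∀ g : G, g ≠ 1 → ∀ n : ℕ, n ≠ 0 → g ^ n ≠ 1) :
    ∃ a : PmpAction G, a.EssFree ∧ a.SmallCover ∧ a.Gap := by
  exact ⟨Bn.ber G, Bn.ber_free tf, Bn.ber_small, Bn.ber_gap tf⟩

end Vale.Agent.P189
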