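import Mathlib

/-! The substitution a to abaa, b to babb: letters, words and the border property. -/

namespace Vale.Agent.P189

abbrev Dir := Bool × Bool

def Dir.inv (d : Dir) : Dir := (d.1, !d.2)

def Dir.nu (d : Dir) : Dir := if d.2 then (d.1, false) else (!d.1, true)

/-- parity of the number of base four digits equal to one -/
def th (n : ℕ) : Bool := if h : n = 0 then false else xor (th (n / 4)) (decide (n % 4 = 1))
decreasing_by omega

/-- the `i`-th letter of the ray of length `4 ^ K` in direction `d` -/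
def lt (K : ℕ) (d : Dir) (i : ℕ) : Dir :=
  if d.2 then (xor d.1 (th i), true) else (xor d.1 (th (4 ^ K - 1 - i)), false)

def phi : FreeGroup Bool →* FreeGroup Bool :=
  FreeGroup.lift fun s => FreeGroup.of s * FreeGroup.of (!s) * FreeGroup.of s * FreeGroup.of s

/-- the product of the first `n` letters of the fixed word starting with `s` -/
def pw (s : Bool) : ℕ → FreeGroup Bool
  | 0 => 1
  | n + 1 => pw s n * FreeGroup.of (xor s (th n))

theorem th_zero : th 0 = false := by
  rw [th]; simp

theorem th_eq (n d : ℕ) (hd : d < 4) : th (4 * n + d) = xor (th n) (decide (d = 1)) := by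
  by_cases h : 4 * n + d = 0
  · have h1 : n = 0 := by omega
    have h2 : d = 0 := by omega
    subst h1 h2
    simp [th_zero]
  · rw [th, dif_neg h]
    have h1 : (4 * n + d) / 4 = n := by omega
    have h2 : (4 * n + d) % 4 = d := by omega
    rw [h1, h2]

theorem th_0 (n : ℕ) : th (4 * n) = th n := by simpa using th_eq n 0 (by omega)
theorem th_1 (n : ℕ) : th (4 * n + 1) = !th n := by simpa using th_eq n 1 (by omega)
theorem th_2 (n : ℕ) : th (4 * n + 2) = th n := by simpa using th_eq n 2 (by omega)
theorem th_3 (n : ℕ) : th (4 * n + 3) = th n := by simpa using th_eq n 3 (by omega)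

theorem th_last (K : ℕ) : th (4 ^ K - 1) = false := by
  induction K with
  | zero => exact th_zero
  | succ K ih =>
    have : 0 < 4 ^ K := by positivity
    have h : 4 ^ (K + 1) - 1 = 4 * (4 ^ K - 1) + 3 := by rw [pow_succ]; omega
    rw [h, th_3, ih]

theorem pw_one (s : Bool) : pw s 1 = FreeGroup.of s := by
  simp [pw, th_zero]

theorem phi_pw (s : Bool) (n : ℕ) : phi (pw s n) = pw s (4 * n) := by
  induction n with
  | zero => simp [pw]
  | succ n ih =>
    have h : 4 * (n + 1) = 4 * n + 1 + 1 + 1 + 1 := by ring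
    rw [h, pw, pw, pw, pw, pw, map_mul, ih, th_0, th_1, show 4 * n + 1 + 1 = 4 * n + 2 from rfl,
      th_2, show 4 * n + 2 + 1 = 4 * n + 3 from rfl, th_3]
    simp [phi, mul_assoc]

theorem th_border (K p : ℕ) (ε : Bool) (h0 : 0 < p) (h1 : p < 4 ^ K)
    (h : ∀ t < p, xor (th t) ε = th (4 ^ K - p + t)) :
    th p = !ε ∧ th (4 ^ K - p - 1) = ε := by
  induction K generalizing p with
  | zero => omega
  | succ K ih =>
    have t0 : th 0 = false := th_zero
    have t1 : th 1 = true := by simpa [t0] using th_1 0
    have t2 : th 2 = false := by simpa [t0] using th_2 0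
    have t3 : th 3 = false := by simpa [t0] using th_3 0
    have hL := th_last K
    rw [pow_succ] at h1 h ⊢
    generalize 4 ^ K = L at *
    obtain ⟨q, d, hd, rfl⟩ : ∃ q d, d < 4 ∧ p = 4 * q + d :=
      ⟨p / 4, p % 4, Nat.mod_lt _ (by norm_num), (Nat.div_add_mod p 4).symm⟩
    obtain ⟨m, rfl⟩ : ∃ m, L = m + q + 1 := ⟨L - q - 1, by omega⟩
    interval_cases d
    · have := ih q (by omega) (by omega) (fun t ht => by
        have := h (4 * t) (by omega)
        rwa [th_0, show (m + q + 1) * 4 - (4 * q + 0) + 4 * t = 4 * (m + q + 1 - q + t) by omega,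
          th_0] at this)
      rw [show (m + q + 1) * 4 - (4 * q + 0) - 1 = 4 * (m + q + 1 - q - 1) + 3 by omega, th_3,
        Nat.add_zero, th_0]
      exact this
    · rcases Nat.eq_zero_or_pos q with rfl | hq
      · have := h 0 (by omega)
        rw [show (m + 0 + 1) * 4 - (4 * 0 + 1) + 0 = 4 * m + 3 by omega, th_3, t0] at this
        rw [show (m + 0 + 1) * 4 - (4 * 0 + 1) - 1 = 4 * m + 2 by omega, th_2]
        have hm : th m = false := by simpa using hL
        rw [hm] at this ⊢
        cases ε <;> simp_all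
      · exfalso
        have a1 := h 1 (by omega)
        have a3 := h 3 (by omega)
        rw [show (m + q + 1) * 4 - (4 * q + 1) + 1 = 4 * (m + 1) by omega, th_0, t1] at a1
        rw [show (m + q + 1) * 4 - (4 * q + 1) + 3 = 4 * (m + 1) + 2 by omega, th_2, t3] at a3
        rw [← a1] at a3
        cases ε <;> simp at a3
    · exfalso
      have a0 := h 0 (by omega)
      have a1 := h 1 (by omega)
      rw [show (m + q + 1) * 4 - (4 * q + 2) + 0 = 4 * m + 2 by omega, th_2, t0] at a0
      rw [show (m + q + 1) * 4 - (4 * q + 2) + 1 = 4 * m + 3 by omega, th_3, t1] at a1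
      rw [← a1] at a0
      cases ε <;> simp at a0
    · exfalso
      have a1 := h 1 (by omega)
      have a2 := h 2 (by omega)
      rw [show (m + q + 1) * 4 - (4 * q + 3) + 1 = 4 * m + 2 by omega, th_2, t1] at a1
      rw [show (m + q + 1) * 4 - (4 * q + 3) + 2 = 4 * m + 3 by omega, th_3, t2] at a2
      rw [← a1] at a2
      cases ε <;> simp at a2

theorem lt_border (K : ℕ) (d e : Dir) (p : ℕ) (h0 : 0 < p) (h1 : p < 4 ^ K)
    (h : ∀ i < p, lt K e i = (lt K d (p - 1 - i)).inv) : lt K e p = d.nu := by
  obtain ⟨s, σ⟩ := d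
  obtain ⟨c, τ⟩ := e
  have hτ : τ = !σ := by
    have := congrArg Prod.snd (h 0 h0)
    cases σ <;> cases τ <;> simp [lt, Dir.inv] at this ⊢
  subst hτ
  cases σ
  · have := th_border K p (xor c s) h0 h1 (fun t ht => by
      have := congrArg Prod.fst (h t ht)
      simp only [lt, Dir.inv, Bool.not_false, if_true, Bool.false_eq_true, if_false] at this
      rw [show 4 ^ K - 1 - (p - 1 - t) = 4 ^ K - p + t by omega] at this
      revert this
      cases th t <;> cases th (4 ^ K - p + t) <;> cases c <;> cases s <;> simp)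
    simp only [lt, Dir.nu, Bool.not_false, if_true, Bool.false_eq_true, if_false, this.1]
    cases c <;> cases s <;> rfl
  · have := th_border K p (xor c s) h0 h1 (fun t ht => by
      have := congrArg Prod.fst (h (p - 1 - t) (by omega))
      simp only [lt, Dir.inv, Bool.not_true, if_true, Bool.false_eq_true, if_false] at this
      rw [show 4 ^ K - 1 - (p - 1 - t) = 4 ^ K - p + t by omega,
        show p - 1 - (p - 1 - t) = t by omega] at this
      revert this
      cases th t <;> cases th (4 ^ K - p + t) <;> cases c <;> cases s <;> simp)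
    simp only [lt, Dir.nu, Bool.not_true, if_true, Bool.false_eq_true, if_false]
    rw [show 4 ^ K - 1 - p = 4 ^ K - p - 1 by omega, this.2]
    cases c <;> cases s <;> rfl

theorem phi_injective : Function.Injective phi := by
  have hpos : ∀ (s : Bool) (g : FreeGroup Bool), g ∉ FreeGroup.startsWith (s, false) →
      FreeGroup.of s * g ∈ FreeGroup.startsWith (s, true) := fun s g hg =>
    FreeGroup.startsWith_mk_mul (w := (s, true)) g hg
  have hneg : ∀ (s : Bool) (g : FreeGroup Bool), g ∉ FreeGroup.startsWith (s, true) →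
      (FreeGroup.of s)⁻¹ * g ∈ FreeGroup.startsWith (s, false) := fun s g hg =>
    FreeGroup.startsWith_mk_mul (w := (s, false)) g hg
  have hdis : ∀ (s t : Bool) (g : FreeGroup Bool), g ∈ FreeGroup.startsWith (s, true) →
      g ∉ FreeGroup.startsWith (t, false) := fun s t g h1 h2 =>
    Set.disjoint_left.1 (FreeGroup.startsWith.disjoint_iff_ne.2 (by simp)) h1 h2
  refine FreeGroup.injective_lift_of_ping_pong (α := FreeGroup Bool) _
    (fun s => FreeGroup.startsWith (s, true)) (fun s => FreeGroup.startsWith (s, false))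
    ?_ ?_ ?_ ?_ ?_ ?_
  · intro s
    refine ⟨FreeGroup.of s * 1, hpos s 1 (fun h => FreeGroup.startsWith.ne_one _ h rfl)⟩
  · intro s t hst
    exact FreeGroup.startsWith.disjoint_iff_ne.2 (by simpa using hst)
  · intro s t hst
    exact FreeGroup.startsWith.disjoint_iff_ne.2 (by simpa using hst)
  · intro s t
    exact FreeGroup.startsWith.disjoint_iff_ne.2 (by simp)
  · rintro s _ ⟨g, hg, rfl⟩
    simp only [smul_eq_mul, mul_assoc]
    exact hpos _ _ (hdis _ _ _ (hpos _ _ (hdis _ _ _ (hpos _ _ (hdis _ _ _ (hpos _ _ hg))))))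
  · rintro s _ ⟨g, hg, rfl⟩
    simp only [smul_eq_mul, Pi.inv_apply, mul_inv_rev, mul_assoc]
    exact hneg _ _ (fun h => hdis _ _ _ h (hneg _ _ (fun h => hdis _ _ _ h
      (hneg _ _ (fun h => hdis _ _ _ h (hneg _ _ hg))))))

end Vale.Agent.P189
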