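import Vale.Agent.P189.Bern
import Vale.Agent.P189.Words

/-! Labelled connections using long arcs and finitely many extra pieces. -/

namespace Vale.Agent.P189

variable {G : Type} [Group G]

/-- `Conn x g`: the point `x` is joined to `x (κ g)` by a chain whose labels multiply to `g` -/
inductive Conn (a : PmpAction G) (κ : FreeGroup Bool →* G) (k : ℕ) {Q : Type}
    (γ : Q → FreeGroup Bool) (A : Q → Set a.X) : a.X → FreeGroup Bool → Prop
  | arc (x s) : Conn a κ k γ A x (pw s (4 ^ (k + 1)))
  | piece (q x) : x ∈ A q → Conn a κ k γ A x (γ q)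
  | one (x) : Conn a κ k γ A x 1
  | mul {x g h} : Conn a κ k γ A x g → Conn a κ k γ A (a.act x (κ g)) h → Conn a κ k γ A x (g * h)
  | inv {x g} : Conn a κ k γ A x g → Conn a κ k γ A (a.act x (κ g)) g⁻¹

end Vale.Agent.P189
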