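import Vale.Agent.P189.Proc

/-! The field of graphs given by two long arcs and finitely many reduced paths. -/

namespace Vale.Agent.P189

open Finset MeasureTheory
open scoped ENNReal

structure Paths (X P : Type) extends Mv X where
  len : P → ℕ
  pos : ∀ p, 0 < len p
  wd : P → ℕ → Dir
  red : ∀ p i, i + 1 < len p → wd p (i + 1) ≠ (wd p i).inv
  dm : P → Set X
  K : ℕ
  arc : Bool → P
  arc_dm : ∀ s x, x ∈ dm (arc s)
  arc_len : ∀ s, len (arc s) = 4 ^ K
  arc_wd : ∀ s i, wd (arc s) i = lt K (s, true) i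

namespace Paths

variable {X P : Type} (W : Paths X P)

abbrev V := Option (Σ p, Fin (W.len p - 1))

abbrev H := (Σ p, Fin (W.len p)) × Bool

def vtx (p : P) (i : ℕ) : W.V :=
  if h : 0 < i ∧ i < W.len p then some ⟨p, ⟨i - 1, by omega⟩⟩ else none

def ix (h : W.H) : ℕ := bif h.2 then h.1.2.val else h.1.2.val + 1

def dv : W.V → Set X
  | none => Set.univ
  | some v => W.bw (W.wd v.1) (v.2.val + 1) ⁻¹' W.dm v.1

def dt (p : P) (i : ℕ) (b : Bool) : W.H := (⟨p, ⟨i % W.len p, Nat.mod_lt _ (W.pos p)⟩⟩, b)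

def ρ (d : Dir) (i : ℕ) : W.H :=
  bif d.2 then W.dt (W.arc d.1) i true else W.dt (W.arc d.1) (4 ^ W.K - 1 - i) false

theorem vtx_zero (p : P) : W.vtx p 0 = none := by simp [vtx]

theorem vtx_len (p : P) : W.vtx p (W.len p) = none := by simp [vtx]

theorem mod_arc (s : Bool) {i : ℕ} (h : i < 4 ^ W.K) : i % W.len (W.arc s) = i :=
  Nat.mod_eq_of_lt (W.arc_len s ▸ h)

def D : DG X W.V W.H where
  toMv := W.toMv
  dir h := bif h.2 then W.wd h.1.1 h.1.2 else (W.wd h.1.1 h.1.2).inv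
  org h := W.vtx h.1.1 (W.ix h)
  rev h := (h.1, !h.2)
  rev_rev h := by simp
  dir_rev := fun ⟨_, b⟩ => by cases b <;> simp [Dir.inv_inv]
  DH h := W.bw (W.wd h.1.1) (W.ix h) ⁻¹' W.dm h.1.1
  DV := W.dv
  DH_org h x hx := by
    unfold vtx
    split_ifs with k
    · simpa only [dv, show W.ix h - 1 + 1 = W.ix h by omega] using hx
    · trivial
  DH_rev := fun ⟨_, b⟩ x hx => by
    cases b
    · exact hx
    · simpa only [ix, Bool.not_true, cond_true, cond_false, Set.mem_preimage, Mv.bw, W.mv_inv]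
        using hx
  base := none
  bd d := W.ρ d 0
  bd_mem := fun ⟨_, b⟩ x => by cases b <;> exact W.arc_dm _ _
  bd_org := fun ⟨s, b⟩ => by
    have := Nat.pos_of_ne_zero (pow_ne_zero W.K (by norm_num : 4 ≠ 0))
    cases b
    · simp only [ρ, dt, ix, cond_false, W.mod_arc s (by omega : 4 ^ W.K - 1 - 0 < 4 ^ W.K)]
      rw [show 4 ^ W.K - 1 - 0 + 1 = W.len (W.arc s) by rw [W.arc_len]; omega, vtx_len]
    · simp [ρ, dt, ix, vtx_zero]
  bd_dir := fun ⟨s, b⟩ => by
    have := Nat.pos_of_ne_zero (pow_ne_zero W.K (by norm_num : 4 ≠ 0))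
    cases b
    · simp only [ρ, dt, cond_false, W.mod_arc s (by omega : 4 ^ W.K - 1 - 0 < 4 ^ W.K)]
      simp [W.arc_wd, lt, th_last, Dir.inv]
    · simp [ρ, dt, W.arc_wd, lt, th_zero]
  deg2 v x hx := by
    cases v with
    | none =>
      exact ⟨W.dt (W.arc true) 0 true, W.dt (W.arc false) 0 true, W.arc_dm _ _, W.arc_dm _ _,
        by simp [dt, ix, vtx_zero], by simp [dt, ix, vtx_zero], by simp [dt, W.arc_wd, lt, th_zero]⟩
    | some v =>
      obtain ⟨p, j, hj⟩ := v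
      have e : W.vtx p (j + 1) = some ⟨p, ⟨j, hj⟩⟩ := by
        simp [vtx, show j + 1 < W.len p by omega]
      exact ⟨(⟨p, ⟨j + 1, by omega⟩⟩, true), (⟨p, ⟨j, by omega⟩⟩, false), hx, hx, e, e,
        W.red p j (by omega)⟩

def R : W.D.Rays where
  L := 4 ^ W.K
  L_pos := by positivity
  ρ := W.ρ
  r d i := bif d.2 then W.vtx (W.arc d.1) i else W.vtx (W.arc d.1) (4 ^ W.K - i)
  l := lt W.K
  mem := fun ⟨_, b⟩ i x => by cases b <;> exact W.arc_dm _ _
  org_ρ := fun ⟨s, b⟩ i hi => by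
    cases b
    · simp only [D, ρ, dt, ix, cond_false, W.mod_arc s (by omega : 4 ^ W.K - 1 - i < 4 ^ W.K)]
      rw [show 4 ^ W.K - 1 - i + 1 = 4 ^ W.K - i by omega]
    · simp only [D, ρ, dt, ix, cond_true, W.mod_arc s hi]
  org_rev := fun ⟨s, b⟩ i hi => by
    cases b
    · simp only [D, ρ, dt, ix, cond_false, cond_true, Bool.not_false,
        W.mod_arc s (by omega : 4 ^ W.K - 1 - i < 4 ^ W.K)]
      rw [show 4 ^ W.K - 1 - i = 4 ^ W.K - (i + 1) by omega]
    · simp only [D, ρ, dt, ix, cond_true, cond_false, Bool.not_true, W.mod_arc s hi]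
  dir_ρ := fun ⟨s, b⟩ i hi => by
    cases b
    · simp only [D, ρ, dt, cond_false, W.mod_arc s (by omega : 4 ^ W.K - 1 - i < 4 ^ W.K)]
      simp [W.arc_wd, lt, Dir.inv]
    · simp only [D, ρ, dt, cond_true, W.mod_arc s hi, W.arc_wd]
  r_zero := fun ⟨s, b⟩ => by
    cases b
    · exact (congrArg _ (W.arc_len s).symm).trans (W.vtx_len _)
    · exact W.vtx_zero _
  r_last := fun ⟨s, b⟩ => by
    cases b
    · exact (congrArg _ (Nat.sub_self _)).trans (W.vtx_zero _)
    · exact (congrArg _ (W.arc_len s).symm).trans (W.vtx_len _)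
  l_zero := fun ⟨s, b⟩ => by cases b <;> simp [lt, th_zero, th_last]
  sign := fun ⟨s, b⟩ i => by cases b <;> simp [lt]
  border := lt_border W.K
  l_sym s i _ := by simp [lt, Dir.inv]
  r_sym s i _ := rfl
  r_ne := fun ⟨s, b⟩ i h0 h1 => by
    cases b
    · simp [D, vtx, W.arc_len, h0, h1]
    · simp [D, vtx, W.arc_len, h0, h1]

theorem reach {Q : X → W.V → W.V → Prop} (hQ : W.D.Closed Q) (p : P) {x : X} (hx : x ∈ W.dm p) :
    ∀ i ≤ W.len p, W.D.RG Q (FreeGroup.mk ((List.range i).map (W.wd p))) x none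
      (W.fw (W.wd p) i x) (W.vtx p i) := by
  intro i
  induction i with
  | zero => exact fun _ => W.vtx_zero p ▸ hQ.rg_one x none
  | succ i ih =>
    intro hi
    rw [List.range_succ, List.map_append, ← FreeGroup.mul_mk]
    exact hQ.rg_mul (ih (by omega)) (hQ.rg_dart (h := (⟨p, ⟨i, hi⟩⟩, true))
      (show W.bw (W.wd p) i _ ∈ W.dm p by rwa [W.bw_fw]))

variable [Fintype P] [MeasurableSpace X] {μ : Measure X}

omit [Fintype P] in
theorem ok (h1 : ∀ d, MeasurePreserving (W.mv d) μ μ) (h2 : ∀ p, MeasurableSet (W.dm p)) :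
    W.D.Ok μ := by
  have b : ∀ w i, Measurable (W.bw w i) := fun w i => by
    induction i with
    | zero => exact measurable_id
    | succ i ih => exact ih.comp (h1 _).measurable
  exact ⟨h1, fun h => b _ _ (h2 _), fun v => by
    cases v with
    | none => exact MeasurableSet.univ
    | some v => exact b _ _ (h2 _)⟩

theorem pot [IsProbabilityMeasure μ] (h1 : ∀ d, MeasurePreserving (W.mv d) μ μ)
    (h2 : ∀ p, MeasurableSet (W.dm p)) {ε : ℝ≥0∞} (h : ∑ p, μ (W.dm p) ≤ 1 + 1 + ε) :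
    DG.Pot W.D μ (fun _ v => v) ε := by
  have ok := W.ok h1 h2
  have m : ∀ p i, μ (W.bw (W.wd p) i ⁻¹' W.dm p) = μ (W.dm p) := fun p i =>
    (ok.bw _ i).measure_preimage (h2 p).nullMeasurableSet
  have a : ∫⁻ x, (W.D.TH (fun _ v => v) x).card ∂μ ≤ ∑ p, 2 * W.len p * μ (W.dm p) := by
    refine (ok.TH_le _).trans (le_of_eq ?_)
    rw [Fintype.sum_prod_type, Fintype.sum_sigma]
    refine sum_congr rfl fun p _ => ?_
    simp only [D, m]
    simp
    ring
  have b : ∫⁻ x, (W.D.TV (fun _ v => v) x).card ∂μ = 1 + ∑ p, (W.len p - 1 : ℕ) * μ (W.dm p) := by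
    rw [ok.TV_id, Fintype.sum_option, Fintype.sum_sigma]
    simp only [D, dv, m]
    simp
  have e : ∑ p, 2 * W.len p * μ (W.dm p) =
      2 * ∑ p, (W.len p - 1 : ℕ) * μ (W.dm p) + 2 * ∑ p, μ (W.dm p) := by
    rw [mul_sum, mul_sum, ← sum_add_distrib]
    refine sum_congr rfl fun p _ => ?_
    obtain ⟨n, hn⟩ := Nat.exists_eq_succ_of_ne_zero (W.pos p).ne'
    rw [hn]
    simp
    ring
  unfold DG.Pot
  rw [b]
  calc _ ≤ _ := a
    _ ≤ 2 * ∑ p, (W.len p - 1 : ℕ) * μ (W.dm p) + 2 * (1 + 1 + ε) := by rw [e]; gcongr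
    _ = _ := by ring

end Paths

end Vale.Agent.P189
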