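import Vale.Agent.P189.Conn
import Vale.Agent.P189.Paths

/-! The folding sweepout: cheap connections give an almost invariant set. -/

namespace Vale.Agent.P189

open MeasureTheory

variable {G : Type} [Group G]

theorem pw_eq (K : ℕ) (s : Bool) (n : ℕ) :
    FreeGroup.mk ((List.range n).map (lt K (s, true))) = pw s n := by
  induction n with
  | zero => rfl
  | succ n ih => rw [List.range_succ, List.map_append, ← FreeGroup.mul_mk, ih]; rfl

theorem range_getD (w : List Dir) :
    (List.range w.length).map (fun i => w.getD i (true, true)) = w :=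
  List.ext_getElem (by simp) fun i h1 h2 => by simp [h2]

def mkPaths (a : PmpAction G) (κ : FreeGroup Bool →* G) (k : ℕ) {Q : Type}
    (γ : Q → FreeGroup Bool) (hγ : ∀ q, γ q ≠ 1) (A : Q → Set a.X) : Paths a.X (Bool ⊕ Q) where
  mv d x := a.act x (κ (FreeGroup.mk [d]))
  mv_inv d x := by
    rw [a.act_mul, ← map_mul, show FreeGroup.mk [d.inv] = (FreeGroup.mk [d])⁻¹ from rfl,
      mul_inv_cancel, map_one, a.act_one]
  len := Sum.elim (fun _ => 4 ^ (k + 1)) fun q => (γ q).toWord.length
  pos := fun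
    | .inl _ => by simp
    | .inr q => List.length_pos_iff.2 fun e => hγ q (FreeGroup.toWord_eq_nil_iff.1 e)
  wd := Sum.elim (fun s => lt (k + 1) (s, true)) fun q i => (γ q).toWord.getD i (true, true)
  red := fun
    | .inl s => fun i _ => by simp [lt, Dir.inv]
    | .inr q => fun i hi e => by
      have h : i + 1 < (γ q).toWord.length := hi
      have := List.isChain_iff_getElem.1 (FreeGroup.isReduced_toWord (x := γ q)) i h
      simp only [Sum.elim_inr, List.getD_eq_getElem _ _ h,
        List.getD_eq_getElem _ _ (Nat.lt_of_succ_lt h)] at e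
      rw [e] at this
      simp [Dir.inv] at this
  dm := Sum.elim (fun _ => Set.univ) A
  K := k + 1
  arc := Sum.inl
  arc_dm _ _ := trivial
  arc_len _ := rfl
  arc_wd _ _ := rfl

theorem core (a : PmpAction G) (ha : a.SmallCover) (κ : FreeGroup Bool →* G) (k : ℕ) {Q : Type}
    [Fintype Q] (γ : Q → FreeGroup Bool) (hγ : ∀ q, γ q ≠ 1) (A : Q → Set a.X)
    (hA : ∀ q, MeasurableSet (A q)) (S : Set a.X) (hS : 1 / 4 < a.μ S)
    (conn : ∀ x ∈ S, Conn a κ k γ A x (pw true (4 ^ k))) :
    ∃ B : Set a.X, MeasurableSet B ∧ 1 / 4 ≤ a.μ B ∧ a.μ B ≤ 3 / 4 ∧ ∀ s : Bool,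
      a.μ {x | ¬ (x ∈ B ↔ a.act x (κ (pw s (4 ^ (k + 1)))) ∈ B)} ≤ 100 * ∑ q, a.μ (A q) := by
  obtain ⟨W, hW⟩ : ∃ W, W = mkPaths a κ k γ hγ A := ⟨_, rfl⟩
  have f : ∀ w i x, W.fw w i x = a.act x (κ (FreeGroup.mk ((List.range i).map w))) := by
    intro w i x
    induction i with
    | zero => exact (map_one κ ▸ a.act_one x).symm
    | succ i ih =>
      rw [Mv.fw, ih, List.range_succ, List.map_append, ← FreeGroup.mul_mk, map_mul, ← a.act_mul, hW]
      rfl
  subst hW
  have h1 : ∀ d, MeasurePreserving ((mkPaths a κ k γ hγ A).mv d) a.μ a.μ := fun d => a.pres _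
  have h2 : ∀ p, MeasurableSet ((mkPaths a κ k γ hγ A).dm p) := fun
    | .inl _ => MeasurableSet.univ
    | .inr q => hA q
  have lt4 : 4 ^ k < 4 ^ (k + 1) := Nat.pow_lt_pow_right (by norm_num) (by omega)
  obtain ⟨B, b1, b2, b3, b4⟩ := DG.sweep (Paths.ok _ h1 h2) (mkPaths a κ k γ hγ A).R ha
    (Paths.pot _ h1 h2 (ε := ∑ q, a.μ (A q)) (by simp [mkPaths, Fintype.sum_sum_type, one_add_one_eq_two]))
    S hS (4 ^ k) (by positivity) lt4 fun R hR x hx => by
      have c : ∀ y g, Conn a κ k γ A y g →
          (mkPaths a κ k γ hγ A).D.RG R g y none (a.act y (κ g)) none := fun y g h => by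
        induction h with
        | arc y s =>
          have := Paths.reach _ hR (.inl s) (x := y) trivial _ le_rfl
          rw [f, Paths.vtx_len] at this
          exact pw_eq (k + 1) s _ ▸ this
        | piece q y hy =>
          have := Paths.reach _ hR (.inr q) (x := y) hy _ le_rfl
          rw [f, Paths.vtx_len] at this
          have e : FreeGroup.mk ((List.range ((mkPaths a κ k γ hγ A).len (.inr q))).map
            ((mkPaths a κ k γ hγ A).wd (.inr q))) = γ q :=
            (congrArg _ (range_getD _)).trans FreeGroup.mk_toWord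
          exact e ▸ this
        | one y => rw [map_one, a.act_one]; exact hR.rg_one _ _
        | mul _ _ i1 i2 => rw [map_mul, ← a.act_mul]; exact hR.rg_mul i1 i2
        | inv _ i1 =>
          rw [a.act_mul, ← map_mul, mul_inv_cancel, map_one, a.act_one]; exact hR.rg_inv i1
      have t := Paths.reach _ hR (.inl true) (x := x) trivial _ lt4.le
      exact (hR.rg_det t (pw_eq (k + 1) true _ ▸ c x _ (conn x hx))).2
  refine ⟨B, b1, b2, b3, fun s => le_of_eq_of_le ?_ (b4 s)⟩
  simp only [← pw_eq (k + 1), ← f]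
  rfl

end Vale.Agent.P189
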