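import Mathlib

/-! Probability measure preserving actions, graphings and cost. -/

namespace Vale.Agent.P189

open MeasureTheory

/-- A p.m.p. action of `G`, written on the right, on a standard probability space. -/
structure PmpAction (G : Type) [Group G] where
  X : Type
  [mX : MeasurableSpace X]
  [sb : StandardBorelSpace X]
  μ : Measure X
  [prob : IsProbabilityMeasure μ]
  act : X → G → X
  act_one : ∀ x, act x 1 = x
  act_mul : ∀ x g h, act (act x g) h = act x (g * h)
  pres : ∀ g, MeasurePreserving (fun x => act x g) μ μ

attribute [instance] PmpAction.mX PmpAction.sb PmpAction.prob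

variable {G : Type} [Group G]

/-- Every non-identity element fixes a null set. -/
def PmpAction.EssFree (a : PmpAction G) : Prop :=
  ∀ g : G, g ≠ 1 → a.μ {x | a.act x g = x} = 0

/-- A countable family of measure preserving Borel bijections between Borel sets whose graphs lie
in the orbit equivalence relation. -/
structure Graphing (a : PmpAction G) where
  I : Type
  [cnt : Countable I]
  dom : I → Set a.X
  cod : I → Set a.X
  dom_meas : ∀ i, MeasurableSet (dom i)
  cod_meas : ∀ i, MeasurableSet (cod i)
  map : ∀ i, dom i ≃ᵐ cod i
  pres : ∀ i, MeasurePreserving (map i) (a.μ.comap Subtype.val) (a.μ.comap Subtype.val)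
  inner : ∀ i x, ∃ g, (map i x : a.X) = a.act x g

/-- Almost every point reaches each point of its orbit by a finite chain of the maps and their
inverses. -/
def Graphing.Generates {a : PmpAction G} (Φ : Graphing a) : Prop :=
  ∀ᵐ x ∂a.μ, ∀ g : G,
    Relation.EqvGen (fun u v => ∃ i, ∃ h : u ∈ Φ.dom i, (Φ.map i ⟨u, h⟩ : a.X) = v) x (a.act x g)

noncomputable def Graphing.cost {a : PmpAction G} (Φ : Graphing a) : ENNReal :=
  ∑' i, a.μ (Φ.dom i)

noncomputable def PmpAction.cost (a : PmpAction G) : ENNReal :=
  ⨅ (Φ : Graphing a) (_ : Φ.Generates), Φ.cost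

end Vale.Agent.P189
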