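import Vale.Agent.P189.Words

/-! Fields of finite labelled graphs over a space, and folding: the combinatorial part. -/

namespace Vale.Agent.P189

open Finset

theorem Dir.inv_inv (d : Dir) : d.inv.inv = d := by simp [Dir.inv]

theorem Dir.inv_ne (d : Dir) : d.inv ≠ d := by
  obtain ⟨s, b⟩ := d
  cases b <;> simp [Dir.inv]

structure Mv (X : Type) where
  mv : Dir → X → X
  mv_inv : ∀ d x, mv d.inv (mv d x) = x

namespace Mv

variable {X : Type} (D : Mv X)

theorem mv_inv' (d : Dir) (x : X) : D.mv d (D.mv d.inv x) = x := by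
  have := D.mv_inv d.inv x
  rwa [Dir.inv_inv] at this

def fw (w : ℕ → Dir) : ℕ → X → X
  | 0, x => x
  | i + 1, x => D.mv (w i) (fw w i x)

def bw (w : ℕ → Dir) : ℕ → X → X
  | 0, z => z
  | i + 1, z => bw w i (D.mv (w i).inv z)

theorem fw_bw (w : ℕ → Dir) (i : ℕ) (z : X) : D.fw w i (D.bw w i z) = z := by
  induction i generalizing z with
  | zero => rfl
  | succ i ih => simp only [fw, bw, ih, D.mv_inv']

theorem bw_fw (w : ℕ → Dir) (i : ℕ) (z : X) : D.bw w i (D.fw w i z) = z := by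
  induction i with
  | zero => rfl
  | succ i ih => simp only [fw, bw, D.mv_inv, ih]

end Mv

structure DG (X V H : Type) extends Mv X where
  dir : H → Dir
  org : H → V
  rev : H → H
  rev_rev : ∀ h, rev (rev h) = h
  dir_rev : ∀ h, dir (rev h) = (dir h).inv
  DH : H → Set X
  DV : V → Set X
  DH_org : ∀ h x, x ∈ DH h → x ∈ DV (org h)
  DH_rev : ∀ h x, x ∈ DH h → mv (dir h) x ∈ DH (rev h)
  base : V
  bd : Dir → H
  bd_mem : ∀ d x, x ∈ DH (bd d)
  bd_org : ∀ d, org (bd d) = base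
  bd_dir : ∀ d, dir (bd d) = d
  deg2 : ∀ v x, x ∈ DV v → ∃ h h', x ∈ DH h ∧ x ∈ DH h' ∧ org h = v ∧ org h' = v ∧ dir h ≠ dir h'

namespace DG

variable {X V H : Type} [Fintype V] [Fintype H] (D : DG X V H)

open Classical

noncomputable section

def tri (c : X → V → V) (x : X) (h : H) : Dir × V × V :=
  (D.dir h, c x (D.org h), c (D.mv (D.dir h) x) (D.org (D.rev h)))

def TH (c : X → V → V) (x : X) : Finset (Dir × V × V) :=
  (univ.filter fun h => x ∈ D.DH h).image (D.tri c x)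

def TV (c : X → V → V) (x : X) : Finset V := (univ.filter fun v => x ∈ D.DV v).image (c x)

def deg (c : X → V → V) (x : X) (u : V) : ℕ := ((D.TH c x).filter fun τ => τ.2.1 = u).card

def Df (c : X → V → V) (x : X) (u : V) : Prop :=
  (u = c x D.base ∧ 5 ≤ D.deg c x u) ∨ (u ≠ c x D.base ∧ 3 ≤ D.deg c x u)

def SD (c : X → V → V) (x : X) : Finset (Dir × V × V) := (D.TH c x).filter fun τ => D.Df c x τ.2.1

omit [Fintype V] in
theorem tri_mem {c : X → V → V} {x : X} {h : H} (hx : x ∈ D.DH h) : D.tri c x h ∈ D.TH c x :=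
  mem_image_of_mem _ (by simpa using hx)

omit [Fintype V] in
theorem base_sub (c : X → V → V) (x : X) : univ.image (fun d => D.tri c x (D.bd d)) ⊆
    (D.TH c x).filter fun τ => τ.2.1 = c x D.base := by
  intro τ hτ
  obtain ⟨d, -, rfl⟩ := mem_image.1 hτ
  exact mem_filter.2 ⟨D.tri_mem (D.bd_mem d x), by simp [tri, D.bd_org]⟩

omit [Fintype V] [Fintype H] in
theorem base_card (c : X → V → V) (x : X) : (univ.image fun d => D.tri c x (D.bd d)).card = 4 := by
  rw [card_image_of_injective]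
  · simp
  · intro d e h
    simpa [tri, D.bd_dir] using congrArg Prod.fst h

omit [Fintype V] in
theorem deg_base (c : X → V → V) (x : X) : 4 ≤ D.deg c x (c x D.base) :=
  D.base_card c x ▸ card_le_card (D.base_sub c x)

theorem deg_two {c : X → V → V} {x : X} {u : V} (hu : u ∈ D.TV c x) : 2 ≤ D.deg c x u := by
  obtain ⟨v, hv, rfl⟩ := mem_image.1 hu
  obtain ⟨h, h', a1, a2, a3, a4, a5⟩ := D.deg2 v x (by simpa using hv)
  refine one_lt_card.2 ⟨D.tri c x h, mem_filter.2 ⟨D.tri_mem a1, by simp [tri, a3]⟩, D.tri c x h',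
    mem_filter.2 ⟨D.tri_mem a2, by simp [tri, a4]⟩, fun e => a5 (congrArg Prod.fst e)⟩

theorem count (c : X → V → V) (x : X) :
    10 * (D.TV c x).card + 10 + (D.SD c x).card ≤ 5 * (D.TH c x).card := by
  have hm : ∀ τ ∈ D.TH c x, τ.2.1 ∈ D.TV c x := fun τ hτ => by
    obtain ⟨h, hh, rfl⟩ := mem_image.1 hτ
    exact mem_image_of_mem _ (by simpa using D.DH_org h x (by simpa using hh))
  have hb : c x D.base ∈ D.TV c x :=
    mem_image_of_mem _ (by simpa using D.bd_org (true, true) ▸ D.DH_org _ x (D.bd_mem _ x))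
  have e1 : (D.TH c x).card = ∑ u ∈ D.TV c x, D.deg c x u := card_eq_sum_card_fiberwise hm
  have e2 : (D.SD c x).card = ∑ u ∈ D.TV c x, if D.Df c x u then D.deg c x u else 0 := by
    rw [card_eq_sum_card_fiberwise (s := D.SD c x) (f := fun τ => τ.2.1) (t := D.TV c x)
      fun τ hτ => hm τ (mem_filter.1 hτ).1]
    refine sum_congr rfl fun u _ => ?_
    split_ifs with h
    · unfold deg SD
      rw [filter_filter]
      exact congrArg card (filter_congr fun τ _ => ⟨fun a => a.2, fun a => ⟨a ▸ h, a⟩⟩)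
    · refine card_eq_zero.2 (filter_eq_empty_iff.2 fun τ hτ e => h ?_)
      exact e ▸ (mem_filter.1 hτ).2
  have e3 : 10 = ∑ u ∈ D.TV c x, if u = c x D.base then 10 else 0 := by simp [hb]
  have e4 : 10 * (D.TV c x).card = ∑ _u ∈ D.TV c x, 10 := by simp [mul_comm]
  rw [e1, e2, e4, mul_sum]
  nth_rewrite 2 [e3]
  rw [← sum_add_distrib, ← sum_add_distrib]
  refine sum_le_sum fun u hu => ?_
  have a := D.deg_two hu
  have b := D.deg_base c x
  unfold Df
  by_cases h : u = c x D.base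
  · subst h
    split_ifs with h1 h2 <;> simp at * <;> omega
  · split_ifs with h2 <;> simp [h] at * <;> omega

omit [Fintype V] in
theorem good_base {c : X → V → V} {x : X} (hg : ¬ D.Df c x (c x D.base)) {h h' : H}
    (a : x ∈ D.DH h) (a' : x ∈ D.DH h') (b : c x (D.org h) = c x D.base)
    (b' : c x (D.org h') = c x D.base) (e : D.dir h = D.dir h') : D.tri c x h = D.tri c x h' := by
  have h4 : D.deg c x (c x D.base) ≤ 4 := by
    by_contra hn
    exact hg (Or.inl ⟨rfl, by omega⟩)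
  have := eq_of_subset_of_card_le (D.base_sub c x) (by rw [D.base_card]; exact h4)
  have k : ∀ g, x ∈ D.DH g → c x (D.org g) = c x D.base →
      D.tri c x g = D.tri c x (D.bd (D.dir g)) := fun g g1 g2 => by
    have m : D.tri c x g ∈ (D.TH c x).filter fun τ => τ.2.1 = c x D.base :=
      mem_filter.2 ⟨D.tri_mem g1, g2⟩
    rw [← this] at m
    obtain ⟨d, -, hd⟩ := mem_image.1 m
    have : d = D.dir g := by simpa [tri, D.bd_dir] using congrArg Prod.fst hd
    rw [← hd, this]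
  rw [k h a b, k h' a' b', e]

/-- special classes: the base class and the defective ones -/
def Sp (c : X → V → V) (x : X) (u : V) : Prop := u = c x D.base ∨ D.Df c x u

omit [Fintype V] in
theorem plain {c : X → V → V} {x : X} {u : V} (hp : ¬ D.Sp c x u) {h h' g : H}
    (a : x ∈ D.DH h) (a' : x ∈ D.DH h') (a'' : x ∈ D.DH g) (b : c x (D.org h) = u)
    (b' : c x (D.org h') = u) (b'' : c x (D.org g) = u) (e : D.dir g ≠ D.dir h)
    (e' : D.dir g ≠ D.dir h') : D.tri c x h = D.tri c x h' := by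
  by_contra hn
  refine hp (Or.inr (Or.inr ⟨fun e => hp (Or.inl e), two_lt_card_iff.2 ⟨D.tri c x h, D.tri c x h',
    D.tri c x g, mem_filter.2 ⟨D.tri_mem a, b⟩, mem_filter.2 ⟨D.tri_mem a', b'⟩,
    mem_filter.2 ⟨D.tri_mem a'', b''⟩, hn, fun k => e (congrArg Prod.fst k).symm,
    fun k => e' (congrArg Prod.fst k).symm⟩⟩))

omit [Fintype V] in
theorem follow {c : X → V → V} (σ : Bool) (n : ℕ) (α β : ℕ → H) (p q : ℕ → X)
    (a1 : ∀ i < n, p i ∈ D.DH (α i)) (a2 : ∀ i < n, p (i + 1) = D.mv (D.dir (α i)) (p i))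
    (a3 : ∀ i, i + 1 < n → D.org (α (i + 1)) = D.org (D.rev (α i)))
    (a4 : ∀ i < n, (D.dir (α i)).2 = σ)
    (b1 : ∀ i < n, q i ∈ D.DH (β i)) (b2 : ∀ i < n, q (i + 1) = D.mv (D.dir (β i)) (q i))
    (b3 : ∀ i, i + 1 < n → D.org (β (i + 1)) = D.org (D.rev (β i)))
    (b4 : ∀ i < n, (D.dir (β i)).2 = σ) (h0 : p 0 = q 0)
    (h1 : D.tri c (p 0) (α 0) = D.tri c (p 0) (β 0))
    (hp : ∀ i, 0 < i → i < n → ¬ D.Sp c (p i) (c (p i) (D.org (α i)))) :
    ∀ i < n, D.dir (α i) = D.dir (β i) ∧ p (i + 1) = q (i + 1) ∧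
      c (p (i + 1)) (D.org (D.rev (α i))) = c (p (i + 1)) (D.org (D.rev (β i))) := by
  have fin : ∀ i < n, p i = q i → D.tri c (p i) (α i) = D.tri c (p i) (β i) →
      D.dir (α i) = D.dir (β i) ∧ p (i + 1) = q (i + 1) ∧
      c (p (i + 1)) (D.org (D.rev (α i))) = c (p (i + 1)) (D.org (D.rev (β i))) := by
    intro i hi e t
    have e1 : D.dir (α i) = D.dir (β i) := congrArg Prod.fst t
    have e2 := congrArg (fun τ => τ.2.2) t
    simp only [tri, ← e1, ← a2 i hi] at e2
    exact ⟨e1, by rw [a2 i hi, b2 i hi, e1, e], e2⟩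
  intro i
  induction i with
  | zero => exact fun hi => fin 0 hi h0 h1
  | succ i ih =>
    intro hi
    obtain ⟨-, e2, e3⟩ := ih (by omega)
    have s1 := a4 i (by omega)
    refine fin _ hi e2 (D.plain (hp _ (by omega) hi) (g := D.rev (α i)) (a1 _ hi) (e2 ▸ b1 _ hi)
      (a2 i (by omega) ▸ D.DH_rev _ _ (a1 i (by omega))) rfl (by rw [b3 i hi, a3 i hi, e3])
      (by rw [a3 i hi]) (fun e => ?_) fun e => ?_)
    · have := a4 _ hi
      rw [← e, D.dir_rev, Dir.inv, s1] at this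
      simp at this
    · have := b4 _ hi
      rw [← e, D.dir_rev, Dir.inv, s1] at this
      simp at this

/-! One parallel fold. -/

def Eff (c : X → V → V) (h h' : H) (E : Set X) : Set X :=
  {x | x ∈ E ∧ x ∈ D.DH h ∧ x ∈ D.DH h' ∧ D.dir h = D.dir h' ∧ c x (D.org h) = c x (D.org h') ∧
    c (D.mv (D.dir h) x) (D.org (D.rev h)) ≠ c (D.mv (D.dir h) x) (D.org (D.rev h'))}

def rho (c : X → V → V) (h h' : H) (E : Set X) (z : X) (u : V) : V :=
  if D.mv (D.dir h).inv z ∈ D.Eff c h h' E ∧ u = c z (D.org (D.rev h')) then c z (D.org (D.rev h))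
  else u

def fold (c : X → V → V) (h h' : H) (E : Set X) (z : X) (v : V) : V := D.rho c h h' E z (c z v)

omit [Fintype V] [Fintype H] in
theorem fold_off {c : X → V → V} {h h' : H} {E : Set X} {z : X}
    (hz : D.mv (D.dir h).inv z ∉ D.Eff c h h' E) : D.fold c h h' E z = c z := by
  funext v
  simp [fold, rho, hz]

omit [Fintype V] [Fintype H] in
theorem fold_on {c : X → V → V} {h h' : H} {E : Set X} {z : X}
    (hz : D.mv (D.dir h).inv z ∈ D.Eff c h h' E) :
    D.fold c h h' E z (D.org (D.rev h)) = D.fold c h h' E z (D.org (D.rev h')) := by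
  simp [fold, rho, hz]

omit [Fintype H] in
theorem TV_fold (c : X → V → V) (h h' : H) (E : Set X) (z : X) :
    (D.TV c z).card ≤ (D.TV (D.fold c h h' E) z).card +
      if D.mv (D.dir h).inv z ∈ D.Eff c h h' E then 1 else 0 := by
  split_ifs with hz
  · refine le_trans (card_le_card (t := insert (c z (D.org (D.rev h'))) (D.TV (D.fold c h h' E) z))
      fun u hu => ?_) (card_insert_le _ _)
    obtain ⟨v, hv, rfl⟩ := mem_image.1 hu
    by_cases e : c z v = c z (D.org (D.rev h'))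
    · exact mem_insert.2 (Or.inl e)
    · exact mem_insert_of_mem (mem_image.2 ⟨v, hv, by simp [fold, rho, e]⟩)
  · simp [TV, D.fold_off hz]

theorem card_image_add {α β : Type} [DecidableEq β] (s t : Finset α) (f : α → β) (hts : t ⊆ s)
    (h : ∀ y ∈ t, ∃ a ∈ s, a ∉ t ∧ f a = f y) : (s.image f).card + t.card ≤ s.card := by
  have : s.image f ⊆ (s \ t).image f := fun b hb => by
    obtain ⟨y, hy, rfl⟩ := mem_image.1 hb
    by_cases k : y ∈ t
    · obtain ⟨a, a1, a2, a3⟩ := h y k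
      exact mem_image.2 ⟨a, mem_sdiff.2 ⟨a1, a2⟩, a3⟩
    · exact mem_image_of_mem _ (mem_sdiff.2 ⟨hy, k⟩)
  have := (card_le_card this).trans card_image_le
  have := card_sdiff_add_card_eq_card hts
  omega

omit [Fintype V] in
theorem TH_fold (c : X → V → V) (h h' : H) (E : Set X) (x : X) :
    (D.TH (D.fold c h h' E) x).card + (if x ∈ D.Eff c h h' E then 1 else 0) +
      (if D.mv (D.dir h).inv x ∈ D.Eff c h h' E then 1 else 0) ≤ (D.TH c x).card := by
  obtain ⟨κ, hκ⟩ : ∃ κ : Dir × V × V → Dir × V × V, ∀ g,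
      κ (D.tri c x g) = D.tri (D.fold c h h' E) x g :=
    ⟨fun τ => (τ.1, D.rho c h h' E x τ.2.1, D.rho c h h' E (D.mv τ.1 x) τ.2.2), fun _ => rfl⟩
  have e : D.TH (D.fold c h h' E) x = (D.TH c x).image κ := by
    unfold TH
    rw [image_image]
    exact image_congr fun g _ => (hκ g).symm
  have p1 : x ∈ D.Eff c h h' E → D.tri c x h ∈ D.TH c x ∧ D.tri c x h' ∈ D.TH c x ∧
      D.tri c x h ≠ D.tri c x h' ∧ κ (D.tri c x h) = κ (D.tri c x h') ∧
      (D.tri c x h).1 = D.dir h ∧ (D.tri c x h').1 = D.dir h := fun k => by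
    obtain ⟨k0, k1, k2, k3, k4, k5⟩ := id k
    refine ⟨D.tri_mem k1, D.tri_mem k2, fun t => k5 ?_, ?_, rfl, k3.symm⟩
    · simpa [tri, ← k3] using congrArg (fun τ => τ.2.2) t
    · rw [hκ, hκ]
      have := D.fold_on (z := D.mv (D.dir h) x) (by rwa [D.mv_inv])
      simp only [tri, ← k3, this]
      simp only [fold, k4]
  have p2 : D.mv (D.dir h).inv x ∈ D.Eff c h h' E → D.tri c x (D.rev h) ∈ D.TH c x ∧
      D.tri c x (D.rev h') ∈ D.TH c x ∧ D.tri c x (D.rev h) ≠ D.tri c x (D.rev h') ∧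
      κ (D.tri c x (D.rev h)) = κ (D.tri c x (D.rev h')) ∧
      (D.tri c x (D.rev h)).1 = (D.dir h).inv ∧ (D.tri c x (D.rev h')).1 = (D.dir h).inv := fun k => by
    obtain ⟨k0, k1, k2, k3, k4, k5⟩ := id k
    have m1 := D.DH_rev _ _ k1
    have m2 := D.DH_rev _ _ k2
    rw [← k3] at m2
    rw [D.mv_inv'] at m1 m2 k5
    refine ⟨D.tri_mem m1, D.tri_mem m2, fun t => k5 (congrArg (fun τ => τ.2.1) t), ?_, D.dir_rev _,
      by rw [k3]; exact D.dir_rev _⟩
    rw [hκ, hκ]
    simp only [tri, D.dir_rev, ← k3, D.fold_on k, D.rev_rev]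
    simp only [fold, k4]
  have n := Dir.inv_ne (D.dir h)
  rw [e]
  split_ifs with k1 k2 k2
  · obtain ⟨a1, a2, a3, a4, a5, a6⟩ := p1 k1
    obtain ⟨b1, b2, b3, b4, b5, b6⟩ := p2 k2
    have n1 : D.tri c x h' ≠ D.tri c x (D.rev h') := fun t => n (by rw [← b6, ← t, a6])
    have := card_image_add (D.TH c x) {D.tri c x h', D.tri c x (D.rev h')} κ
      (by simp [insert_subset_iff, a2, b2]) (by
        simp only [mem_insert, mem_singleton, forall_eq_or_imp, forall_eq, not_or]
        exact ⟨⟨_, a1, ⟨a3, fun t => n (by rw [← b6, ← t, a5])⟩, a4⟩,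
          ⟨_, b1, ⟨fun t => n (by rw [← b5, t, a6]), b3⟩, b4⟩⟩)
    rw [card_pair n1] at this
    omega
  · obtain ⟨a1, a2, a3, a4, -⟩ := p1 k1
    simpa using card_image_add (D.TH c x) {D.tri c x h'} κ (by simpa using a2)
      (by simpa only [mem_singleton, forall_eq] using ⟨_, a1, a3, a4⟩)
  · obtain ⟨a1, a2, a3, a4, -⟩ := p2 k2
    simpa using card_image_add (D.TH c x) {D.tri c x (D.rev h')} κ (by simpa using a2)
      (by simpa only [mem_singleton, forall_eq] using ⟨_, a1, a3, a4⟩)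
  · simpa using card_image_le

end

end DG

end Vale.Agent.P189
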