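import Vale.Agent.P189.Words

/-! The direct limit of free groups along the substitution. -/

namespace Vale.Agent.P189

/-- a countable group that is the increasing union of free groups along `phi` -/
structure Tower (G : Type) [Group G] where
  ι : ℕ → FreeGroup Bool →* G
  inj : ∀ k, Function.Injective (ι k)
  compat : ∀ k g, ι (k + 1) (phi g) = ι k g
  cover : ∀ x, ∃ k g, ι k g = x
  χ : G →* Multiplicative ℝ
  χ_of : ∀ k s, χ (ι k (FreeGroup.of s)) = Multiplicative.ofAdd (1 / 4 ^ k)

namespace Tw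

/-- the iterated substitution -/
def tr (i j : ℕ) (_ : i ≤ j) : FreeGroup Bool →* FreeGroup Bool :=
  ((show Monoid.End (FreeGroup Bool) from phi) ^ (j - i) : Monoid.End (FreeGroup Bool))

theorem tr_apply (i j : ℕ) (h : i ≤ j) (g : FreeGroup Bool) : tr i j h g = phi^[j - i] g := by
  exact congrFun (Monoid.End.coe_pow (FreeGroup Bool) phi (j - i)) g

instance sys : DirectedSystem (fun _ : ℕ => FreeGroup Bool) (fun i j h => tr i j h) where
  map_self i x := by simp [tr_apply]
  map_map k j i hij hjk x := by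
    simp only [tr_apply]
    rw [← Function.iterate_add_apply]
    congr 1
    omega

/-- the limit group -/
abbrev L : Type := DirectLimit (fun _ : ℕ => FreeGroup Bool) tr

/-- the canonical maps -/
noncomputable def emb (k : ℕ) : FreeGroup Bool →* L where
  toFun g := ⟦⟨k, g⟩⟧
  map_one' := (DirectLimit.one_def k).symm
  map_mul' x y := (DirectLimit.mul_def (f := tr) k x y).symm

/-- the normalized exponent sum -/
noncomputable def ch (k : ℕ) : FreeGroup Bool →* Multiplicative ℝ :=
  FreeGroup.lift fun _ => Multiplicative.ofAdd (1 / 4 ^ k)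

theorem ch_phi (k : ℕ) (g : FreeGroup Bool) : ch (k + 1) (phi g) = ch k g := by
  have : (ch (k + 1)).comp phi = ch k := by
    ext s
    simp only [ch, phi, MonoidHom.comp_apply, FreeGroup.lift_apply_of, map_mul, ← ofAdd_add,
      toAdd_ofAdd]
    field_simp
    ring
  exact DFunLike.congr_fun this g

theorem ch_tr (i j : ℕ) (h : i ≤ j) (g : FreeGroup Bool) : ch i g = ch j (tr i j h g) := by
  obtain ⟨d, rfl⟩ := Nat.exists_eq_add_of_le h
  rw [tr_apply, Nat.add_sub_cancel_left]
  induction d with
  | zero => rfl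
  | succ d ih =>
    rw [Function.iterate_succ_apply', ← Nat.add_assoc, ch_phi]
    exact ih (Nat.le_add_right _ _)

end Tw

theorem exists_tower : ∃ (G : Type) (_ : Group G) (_ : Countable G), Nonempty (Tower G) := by
  refine ⟨Tw.L, inferInstance, inferInstance, ⟨⟨Tw.emb, fun k => ?_, fun k g => ?_, fun x => ?_,
    ⟨⟨DirectLimit.lift Tw.tr (fun k => Tw.ch k) Tw.ch_tr, DirectLimit.lift_one Tw.ch Tw.ch_tr⟩,
      DirectLimit.lift_mul Tw.ch Tw.ch_tr⟩, fun k s => ?_⟩⟩⟩
  · refine DirectLimit.mk_injective Tw.tr (fun i j h x y e => ?_) k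
    rw [Tw.tr_apply, Tw.tr_apply] at e
    exact phi_injective.iterate _ e
  · have := DirectLimit.mk_apply (f := Tw.tr) k (k + 1) g (Nat.le_succ k)
    rw [Tw.tr_apply, Nat.add_sub_cancel_left] at this
    exact this
  · obtain ⟨k, g, rfl⟩ := DirectLimit.exists_eq_mk Tw.tr x
    exact ⟨k, g, rfl⟩
  · exact FreeGroup.lift_apply_of

variable {G : Type} [Group G] (T : Tower G)

theorem Tower.up (k j : ℕ) (s : Bool) (n : ℕ) :
    T.ι (k + j) (pw s (4 ^ j * n)) = T.ι k (pw s n) := by
  induction j with
  | zero => simp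
  | succ j ih =>
    rw [← ih, ← T.compat (k + j), phi_pw, pow_succ', Nat.mul_assoc]
    rfl

theorem Tower.range_mono {k m : ℕ} (h : k ≤ m) : (T.ι k).range ≤ (T.ι m).range := by
  induction m, h using Nat.le_induction with
  | base => exact le_rfl
  | succ m _ ih =>
    refine ih.trans ?_
    rintro _ ⟨g, rfl⟩
    exact ⟨phi g, T.compat m g⟩

include T in
theorem Tower.torsionFree (g : G) (hg : g ≠ 1) (n : ℕ) (hn : n ≠ 0) : g ^ n ≠ 1 := by
  obtain ⟨k, x, rfl⟩ := T.cover g
  intro h
  rw [← map_pow, ← (T.ι k).map_one] at h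
  have h1 := T.inj k h
  rw [pow_eq_one_iff_left hn] at h1
  exact hg (by rw [h1, map_one])

end Vale.Agent.P189
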