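import Vale.Agent.P189.Core
import Vale.Agent.P189.Grp

/-! Expanding free actions of the tower group have infinite cost. -/

namespace Vale.Agent.P189

open MeasureTheory

variable {G : Type} [Group G]

namespace High

theorem exists_pieces [Countable G] {a : PmpAction G} (Φ : Graphing a) :
    ∃ (e : ℕ → G) (A : Φ.I × ℕ → Set a.X), (∀ q, MeasurableSet (A q)) ∧
      ∑' q, a.μ (A q) = Φ.cost ∧
      ∀ i u (h : u ∈ Φ.dom i), ∃ j, u ∈ A (i, j) ∧ (Φ.map i ⟨u, h⟩ : a.X) = a.act u (e j) := by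
  obtain ⟨e, he⟩ := exists_surjective_nat G
  let R : Φ.I → ℕ → Set a.X := fun i j =>
    Subtype.val '' {x : Φ.dom i | (Φ.map i x : a.X) = a.act x (e j)}
  have hR : ∀ i j, MeasurableSet (R i j) := fun i j =>
    (Φ.dom_meas i).subtype_image (measurableSet_eq_fun
      (measurable_subtype_coe.comp (Φ.map i).measurable)
      ((a.pres _).measurable.comp measurable_subtype_coe))
  have hU : ∀ i, ⋃ j, disjointed (R i) j = Φ.dom i := fun i => by
    rw [iUnion_disjointed]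
    refine Set.Subset.antisymm (Set.iUnion_subset fun j => Subtype.coe_image_subset _ _)
      fun u hu => ?_
    obtain ⟨g, hg⟩ := Φ.inner i ⟨u, hu⟩
    obtain ⟨j, rfl⟩ := he g
    exact Set.mem_iUnion.2 ⟨j, ⟨u, hu⟩, hg, rfl⟩
  refine ⟨e, fun q => disjointed (R q.1) q.2, fun q => MeasurableSet.disjointed (hR q.1) q.2, ?_,
    fun i u h => ?_⟩
  · rw [ENNReal.tsum_prod', Graphing.cost]
    refine tsum_congr fun i => ?_
    rw [← hU i, measure_iUnion (disjoint_disjointed _) (MeasurableSet.disjointed (hR i))]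
  · obtain ⟨j, hj⟩ := Set.mem_iUnion.1 ((hU i).symm ▸ h : u ∈ ⋃ j, disjointed (R i) j)
    obtain ⟨x, hx, rfl⟩ := disjointed_subset _ _ hj
    exact ⟨j, hj, hx⟩

/-- Edges given by a subgroup and finitely many pieces. -/
def Edge (a : PmpAction G) (H : Subgroup G) {J : Type} (g : J → G) (A : J → Set a.X)
    (Q : Finset J) (u v : a.X) : Prop :=
  (∃ h ∈ H, v = a.act u h) ∨ ∃ q ∈ Q, g q ∉ H ∧ u ∈ A q ∧ v = a.act u (g q)

theorem Edge.mono {a : PmpAction G} {H : Subgroup G} {J : Type} {g : J → G} {A : J → Set a.X}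
    {Q Q' : Finset J} (h : Q ⊆ Q') {u v : a.X} (he : Relation.EqvGen (Edge a H g A Q) u v) :
    Relation.EqvGen (Edge a H g A Q') u v := by
  refine Relation.EqvGen.mono ?_ _ _ he
  rintro u v (h1 | ⟨q, hq, h1⟩)
  · exact Or.inl h1
  · exact Or.inr ⟨q, h hq, h1⟩

theorem exists_fin {a : PmpAction G} (H : Subgroup G) {J : Type} {g : J → G} {A : J → Set a.X}
    {r : a.X → a.X → Prop} (hr : ∀ u v, r u v → ∃ q, u ∈ A q ∧ v = a.act u (g q)) {u v : a.X}
    (h : Relation.EqvGen r u v) : ∃ Q, Relation.EqvGen (Edge a H g A Q) u v := by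
  classical
  induction h with
  | rel u v h =>
    obtain ⟨q, h1, h2⟩ := hr u v h
    by_cases h3 : g q ∈ H
    · exact ⟨∅, .rel _ _ (Or.inl ⟨_, h3, h2⟩)⟩
    · exact ⟨{q}, .rel _ _ (Or.inr ⟨q, Finset.mem_singleton_self q, h3, h1, h2⟩)⟩
  | refl u => exact ⟨∅, .refl u⟩
  | symm u v _ ih => exact ih.imp fun _ h => .symm _ _ h
  | trans u v w _ _ ih ih' =>
    obtain ⟨Q, h1⟩ := ih
    obtain ⟨Q', h2⟩ := ih'
    exact ⟨Q ∪ Q', .trans _ _ _ (Edge.mono Finset.subset_union_left h1)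
      (Edge.mono Finset.subset_union_right h2)⟩

section
variable {a : PmpAction G} {κ : FreeGroup Bool →* G} {k : ℕ} {Q : Type}
  {γ : Q → FreeGroup Bool} {A : Q → Set a.X}

theorem conn_range {ι : FreeGroup Bool →* G} (h : ∀ s, κ (pw s (4 ^ (k + 1))) = ι (.of s))
    (w : FreeGroup Bool) : ∃ g, κ g = ι w ∧ ∀ u, Conn a κ k γ A u g := by
  induction w using FreeGroup.induction_on with
  | C1 => exact ⟨1, by rw [map_one, map_one], Conn.one⟩
  | of s => exact ⟨_, h s, fun u => Conn.arc u s⟩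
  | inv_of s ih =>
    obtain ⟨g, h1, h2⟩ := ih
    refine ⟨g⁻¹, by rw [map_inv, map_inv, h1], fun u => ?_⟩
    have := (h2 (a.act u (κ g)⁻¹)).inv
    rwa [a.act_mul, inv_mul_cancel, a.act_one] at this
  | mul v w hv hw =>
    obtain ⟨g, h1, h2⟩ := hv
    obtain ⟨g', h3, h4⟩ := hw
    exact ⟨g * g', by rw [map_mul, map_mul, h1, h3], fun u => (h2 u).mul (h4 _)⟩

theorem conn_of_eqv {r : a.X → a.X → Prop}
    (hr : ∀ u v, r u v → ∃ g, v = a.act u (κ g) ∧ Conn a κ k γ A u g) {u v : a.X}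
    (h : Relation.EqvGen r u v) : ∃ g, v = a.act u (κ g) ∧ Conn a κ k γ A u g := by
  induction h with
  | rel u v h => exact hr u v h
  | refl u => exact ⟨1, by rw [map_one, a.act_one], Conn.one u⟩
  | symm u v _ ih =>
    obtain ⟨g, rfl, h⟩ := ih
    exact ⟨g⁻¹, by rw [a.act_mul, map_inv, mul_inv_cancel, a.act_one], h.inv⟩
  | trans u v w _ _ ih ih' =>
    obtain ⟨g, rfl, h⟩ := ih
    obtain ⟨g', rfl, h'⟩ := ih'
    exact ⟨g * g', by rw [a.act_mul, map_mul], h.mul h'⟩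

end

theorem exists_level (T : Tower G) {J : Type} (g : J → G) (F : Finset J) :
    ∃ n, ∀ q ∈ F, g q ∈ (T.ι n).range := by
  choose k w hw using T.cover
  exact ⟨F.sup fun q => k (g q), fun q hq =>
    T.range_mono (Finset.le_sup (f := fun q => k (g q)) hq) ⟨_, hw _⟩⟩

end High

open High in
theorem cost_top [Countable G] (T : Tower G) (a : PmpAction G) (h1 : a.EssFree) (h2 : a.SmallCover)
    (h3 : a.Gap) : a.cost = ⊤ := by
  classical
  refine iInf₂_eq_top.2 fun Φ hΦ => ?_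
  by_contra hne
  have := Φ.cnt
  obtain ⟨e, A, hA, hsum, hcov⟩ := exists_pieces Φ
  obtain ⟨F, hF⟩ := ((ENNReal.tendsto_tsum_compl_atTop_zero (hsum ▸ hne)).eventually
    (ge_mem_nhds (show (0 : ENNReal) < 1 / 30000 by simp))).exists
  obtain ⟨n, hn⟩ := exists_level T (fun q : Φ.I × ℕ => e q.2) F
  let S : Finset (Φ.I × ℕ) → Set a.X := fun Q => {x | (∀ g, g ≠ 1 → a.act x g ≠ x) ∧
    Relation.EqvGen (Edge a (T.ι n).range (fun q => e q.2) A Q) x
      (a.act x (T.ι (n + 1) (.of true)))}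
  have hS : Monotone S := fun Q Q' h x hx => ⟨hx.1, Edge.mono h hx.2⟩
  have hU : ∀ᵐ x ∂a.μ, x ∈ ⋃ Q, S Q := by
    have hfree : ∀ᵐ x ∂a.μ, ∀ g, g ≠ 1 → a.act x g ≠ x :=
      ae_all_iff.2 fun g => by
        by_cases hg : g = 1
        · exact Filter.Eventually.of_forall fun _ h => absurd hg h
        · filter_upwards [measure_eq_zero_iff_ae_notMem.1 (h1 g hg)] with x hx _ using hx
    filter_upwards [hfree, hΦ] with x hx hx'
    obtain ⟨Q, hQ⟩ := exists_fin (T.ι n).range (g := fun q : Φ.I × ℕ => e q.2) (A := A)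
      (by
        rintro u v ⟨i, h, rfl⟩
        obtain ⟨j, h4, h5⟩ := hcov i u h
        exact ⟨(i, j), h4, h5⟩) (hx' (T.ι (n + 1) (.of true)))
    exact Set.mem_iUnion.2 ⟨Q, hx, hQ⟩
  have hU1 : 1 / 4 < a.μ (⋃ Q, S Q) := by
    have : a.μ (⋃ Q, S Q) = a.μ Set.univ := measure_congr (Filter.eventuallyEq_univ.2 hU)
    rw [this, measure_univ]
    simp
  rw [hS.measure_iUnion] at hU1
  obtain ⟨Q, hQ⟩ := lt_iSup_iff.1 hU1
  obtain ⟨k, hk⟩ := exists_level T (fun q : Φ.I × ℕ => e q.2) Q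
  let Q' := Q.filter fun q => e q.2 ∉ (T.ι n).range
  have hγ : ∀ q : Q', ∃ w, T.ι (n + (k + 1)) w = e q.1.2 := fun q =>
    T.range_mono (by omega) (hk _ (Finset.mem_filter.1 q.2).1)
  choose γ hγ using hγ
  have hup : ∀ s, T.ι (n + (k + 1)) (pw s (4 ^ (k + 1))) = T.ι n (.of s) := fun s => by
    have := T.up n (k + 1) s 1
    rwa [mul_one, pw_one] at this
  have hup' : T.ι (n + (k + 1)) (pw true (4 ^ k)) = T.ι (n + 1) (.of true) := by
    have := T.up (n + 1) k true 1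
    rwa [mul_one, pw_one, show n + 1 + k = n + (k + 1) by omega] at this
  obtain ⟨B, b1, b2, b3, b4⟩ := core a h2 (T.ι (n + (k + 1))) k γ
    (fun q h => (Finset.mem_filter.1 q.2).2 (by rw [← hγ, h, map_one]; exact one_mem _))
    (fun q => A q.1) (fun q => hA _) (S Q) hQ (fun x hx => by
      obtain ⟨g, h4, h5⟩ := conn_of_eqv (κ := T.ι (n + (k + 1))) (k := k) (γ := γ)
        (A := fun q => A q.1) (by
          rintro u v (⟨_, ⟨w, rfl⟩, rfl⟩ | ⟨q, hq, h4, h5, rfl⟩)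
          · obtain ⟨g, h4, h5⟩ := conn_range (γ := γ) (A := fun q : Q' => A q.1) hup w
            exact ⟨g, by rw [h4], h5 u⟩
          · exact ⟨γ ⟨q, Finset.mem_filter.2 ⟨hq, h4⟩⟩, by rw [hγ],
              Conn.piece _ _ h5⟩) hx.2
      have h6 : T.ι (n + 1) (.of true) * (T.ι (n + (k + 1)) g)⁻¹ = 1 := by
        by_contra h6
        apply hx.1 _ h6
        rw [← a.act_mul, h4, a.act_mul, mul_inv_cancel, a.act_one]
      rw [mul_inv_eq_one, ← hup'] at h6
      rwa [T.inj _ h6])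
  obtain ⟨s, hs⟩ := h3 (T.ι n) (T.inj n) B b1 b2 b3
  have h4 := b4 s
  rw [hup] at h4
  have h5 : ∑ q : Q', a.μ (A q.1) ≤ 1 / 30000 := by
    refine le_trans ?_ hF
    rw [← tsum_fintype (L := SummationFilter.unconditional _)]
    exact ENNReal.tsum_comp_le_tsum_of_injective
      (f := fun q : Q' => (⟨q.1, fun h => (Finset.mem_filter.1 q.2).2 (hn _ h)⟩ : {q // q ∉ F}))
      (fun q q' h => Subtype.ext (Subtype.mk.inj h)) (fun q => a.μ (A q.1))
  have h6 : (1 / 200 : ENNReal) ≤ 100 * (1 / 30000) := hs.trans (h4.trans (by gcongr))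
  have h7 := ENNReal.toReal_mono (by finiteness) h6
  simp only [one_div, ENNReal.toReal_inv, ENNReal.toReal_mul, ENNReal.toReal_ofNat] at h7
  norm_num at h7

end Vale.Agent.P189
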