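import Vale.Agent.P189.Defs
import Vale.Agent.P189.Grp

/-! A free action of finite cost. -/

namespace Vale.Agent.P189

open MeasureTheory

variable {G : Type} [Group G]

namespace Low

theorem act_inv (a : PmpAction G) (x : a.X) (g : G) : a.act (a.act x g) g⁻¹ = x := by
  rw [a.act_mul, mul_inv_cancel, a.act_one]

theorem inv_act (a : PmpAction G) (x : a.X) (g : G) : a.act (a.act x g⁻¹) g = x := by
  rw [a.act_mul, inv_mul_cancel, a.act_one]

/-- The restriction of a group element to a set. -/
def res (a : PmpAction G) (g : G) (A : Set a.X) : A ≃ᵐ ((fun x => a.act x g⁻¹) ⁻¹' A) where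
  toFun x := ⟨a.act x g, Set.mem_preimage.2 (Set.mem_of_eq_of_mem (act_inv a x g) x.2)⟩
  invFun y := ⟨a.act y g⁻¹, y.2⟩
  left_inv x := Subtype.ext (act_inv a x g)
  right_inv x := Subtype.ext (inv_act a x g)
  measurable_toFun := by
    exact ((a.pres g).measurable.comp measurable_subtype_coe).subtype_mk
  measurable_invFun := by
    exact ((a.pres g⁻¹).measurable.comp measurable_subtype_coe).subtype_mk

theorem res_pres (a : PmpAction G) (g : G) {A : Set a.X} (hA : MeasurableSet A) :
    MeasurePreserving (res a g A) (a.μ.comap Subtype.val) (a.μ.comap Subtype.val) := by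
  have hc : MeasurableSet ((fun x => a.act x g⁻¹) ⁻¹' A) := (a.pres _).measurable hA
  refine ⟨(res a g A).measurable, Measure.ext fun s hs => ?_⟩
  rw [Measure.map_apply (res a g A).measurable hs, comap_subtype_coe_apply hA,
    comap_subtype_coe_apply hc,
    ← (a.pres g).measure_preimage (hc.subtype_image hs).nullMeasurableSet]
  congr 1
  ext x
  constructor
  · rintro ⟨y, hy, rfl⟩
    exact ⟨res a g A y, hy, rfl⟩
  · rintro ⟨y, hy, hx⟩
    refine ⟨(res a g A).symm y, by simpa using hy, ?_⟩
    change a.act y g⁻¹ = x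
    rw [hx, a.act_mul, mul_inv_cancel, a.act_one]

/-- Restrictions of group elements to measurable sets form a graphing. -/
noncomputable def ofFamily (a : PmpAction G) (I : Type) [Countable I] (g : I → G)
    (A : I → Set a.X) (hA : ∀ i, MeasurableSet (A i)) : Graphing a where
  I := I
  dom := A
  cod i := (fun x => a.act x (g i)⁻¹) ⁻¹' A i
  dom_meas := hA
  cod_meas i := (a.pres _).measurable (hA i)
  map i := res a (g i) (A i)
  pres i := res_pres a (g i) (hA i)
  inner i _ := ⟨g i, rfl⟩

/-- The skew action on the product with the circle. -/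
noncomputable def ac (T : Tower G) (a : PmpAction G) (p : a.X × UnitAddCircle) (g : G) :
    a.X × UnitAddCircle := (a.act p.1 g, p.2 + ((T.χ g).toAdd : ℝ))

theorem ac_one (T : Tower G) (a : PmpAction G) (p : a.X × UnitAddCircle) : ac T a p 1 = p := by
  simp [ac, a.act_one]

theorem ac_mul (T : Tower G) (a : PmpAction G) (p : a.X × UnitAddCircle) (g h : G) :
    ac T a (ac T a p g) h = ac T a p (g * h) := by
  simp [ac, a.act_mul, add_assoc]

/-- The skew action as a p.m.p. action. -/
noncomputable def circ (T : Tower G) (a : PmpAction G) : PmpAction G where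
  X := a.X × UnitAddCircle
  μ := a.μ.prod volume
  prob := by
    have : IsProbabilityMeasure (volume : Measure UnitAddCircle) := ⟨UnitAddCircle.measure_univ⟩
    infer_instance
  act := ac T a
  act_one := ac_one T a
  act_mul := ac_mul T a
  pres g := (a.pres g).prod (measurePreserving_add_right volume _)

theorem gen (T : Tower G) (a : PmpAction G) {R : a.X × UnitAddCircle → a.X × UnitAddCircle → Prop}
    (hR : Equivalence R)
    (h : ∀ k s x (r : ℝ), 0 ≤ r → r ≤ 3 / 4 ^ k →
      R (x, (r : UnitAddCircle)) (ac T a (x, (r : UnitAddCircle)) (T.ι k (.of s))))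
    (p : a.X × UnitAddCircle) (g : G) : R p (ac T a p g) := by
  have hrep : ∀ y : UnitAddCircle, ∃ r : ℝ, 0 ≤ r ∧ r ≤ 1 ∧ (r : UnitAddCircle) = y := fun y => by
    obtain ⟨r, hr, h⟩ := AddCircle.eq_coe_Ico y
    exact ⟨r, hr.1, hr.2.le, h⟩
  have key : ∀ k s p, R p (ac T a p (T.ι k (.of s))) := by
    intro k
    induction k with
    | zero =>
      rintro s ⟨x, y⟩
      obtain ⟨r, h0, h1, rfl⟩ := hrep y
      exact h 0 s x r h0 (by linarith [show (3 : ℝ) / 4 ^ 0 = 3 by norm_num])
    | succ k ih =>
      obtain ⟨d, hd⟩ : ∃ d : ℝ, d = 1 / 4 ^ (k + 1) := ⟨_, rfl⟩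
      have hd0 : 0 < d := by rw [hd]; positivity
      have hact : ∀ x (r : ℝ) s,
          ac T a (x, (r : UnitAddCircle)) (T.ι (k + 1) (.of s)) =
            (a.act x (T.ι (k + 1) (.of s)), ((r + d : ℝ) : UnitAddCircle)) := fun x r s => by
        simp only [ac, T.χ_of, toAdd_ofAdd, hd, AddCircle.coe_add]
      have step : ∀ (j : ℕ) s x (r : ℝ), 0 ≤ r → r ≤ j * d → R (x, (r : UnitAddCircle))
          (ac T a (x, (r : UnitAddCircle)) (T.ι (k + 1) (.of s))) := by
        intro j
        induction j with
        | zero =>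
          intro s x r h0 h1
          exact h _ s x r h0 (le_trans (by simpa using h1) (by positivity))
        | succ j ihj =>
          intro s x r h0 h1
          by_cases h3 : r ≤ 3 * d
          · exact h _ s x r h0 (by rw [hd] at h3; linarith [mul_one_div (3 : ℝ) (4 ^ (k + 1))])
          push Not at h3
          push_cast at h1
          obtain ⟨z, rfl⟩ : ∃ z, x = a.act (a.act (a.act z (T.ι (k + 1) (.of s)))
              (T.ι (k + 1) (.of !s))) (T.ι (k + 1) (.of s)) :=
            ⟨a.act x (T.ι (k + 1) (.of s) * T.ι (k + 1) (.of !s) * T.ι (k + 1) (.of s))⁻¹, by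
              simp [a.act_mul, a.act_one, mul_assoc]⟩
          obtain ⟨t, rfl⟩ : ∃ t, r = t + d + d + d := ⟨r - 3 * d, by ring⟩
          have e1 := ihj s z t (by linarith) (by linarith)
          rw [hact] at e1
          have e2 := ihj (!s) (a.act z (T.ι (k + 1) (.of s))) (t + d) (by linarith) (by linarith)
          rw [hact] at e2
          have e3 := ihj s (a.act (a.act z (T.ι (k + 1) (.of s))) (T.ι (k + 1) (.of !s)))
            (t + d + d) (by linarith) (by linarith)
          rw [hact] at e3
          have e4 := ih s (z, (t : UnitAddCircle))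
          rw [← T.compat, show phi (.of s) = .of s * .of (!s) * .of s * .of s from
            FreeGroup.lift_apply_of, map_mul, map_mul, map_mul, ← ac_mul,
            ← ac_mul, ← ac_mul, hact, hact, hact] at e4
          exact hR.trans (hR.symm (hR.trans e1 (hR.trans e2 e3))) e4
      rintro s ⟨x, y⟩
      obtain ⟨r, h0, h1, rfl⟩ := hrep y
      refine step (4 ^ (k + 1)) s x r h0 (h1.trans (le_of_eq ?_))
      rw [hd]; push_cast; field_simp
  obtain ⟨k, w, rfl⟩ := T.cover g
  induction w using FreeGroup.induction_on generalizing p with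
  | C1 => rw [map_one, ac_one]; exact hR.refl p
  | of s => exact key k s p
  | inv_of s ih =>
    have := ih (ac T a p (T.ι k (.of s))⁻¹)
    rw [ac_mul, inv_mul_cancel, ac_one] at this
    rw [map_inv]
    exact hR.symm this
  | mul u v hu hv =>
    rw [map_mul, ← ac_mul]
    exact hR.trans (hu p) (hv _)

end Low

open Low in
theorem exists_low (T : Tower G) (a : PmpAction G) (ha : a.EssFree) :
    ∃ b : PmpAction G, b.EssFree ∧ b.cost < ⊤ := by
  refine ⟨circ T a, fun g hg => ?_, ?_⟩
  · refine measure_mono_null (t := {x | a.act x g = x} ×ˢ Set.univ)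
      (fun p hp => ⟨congrArg Prod.fst hp, trivial⟩) ?_
    change (a.μ.prod volume) _ = 0
    rw [Measure.prod_prod, ha g hg, zero_mul]
  let Φ : Graphing (circ T a) := ofFamily (circ T a) (ℕ × Bool) (fun i => T.ι i.1 (.of i.2))
    (fun i => Set.univ ×ˢ Metric.closedBall (0 : UnitAddCircle) (3 / 4 ^ i.1))
    fun _ => MeasurableSet.univ.prod measurableSet_closedBall
  have hΦ : Φ.Generates := by
    refine Filter.Eventually.of_forall fun p g => gen T a (Relation.EqvGen.is_equivalence _)
      (fun k s x r h0 h1 => Relation.EqvGen.rel _ _ ⟨(k, s), ⟨trivial, ?_⟩, rfl⟩) p g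
    rw [mem_closedBall_zero_iff]
    exact (QuotientAddGroup.norm_mk_le_norm.trans_eq (Real.norm_of_nonneg h0)).trans h1
  refine (iInf₂_le Φ hΦ).trans_lt ?_
  have h1 : ∀ i : ℕ × Bool, (circ T a).μ (Φ.dom i) ≤ ENNReal.ofReal (6 * (1 / 4) ^ i.1) := by
    intro i
    change (a.μ.prod volume) (Set.univ ×ˢ Metric.closedBall (0 : UnitAddCircle) (3 / 4 ^ i.1)) ≤ _
    rw [Measure.prod_prod, measure_univ, one_mul, AddCircle.volume_closedBall]
    refine ENNReal.ofReal_le_ofReal ((min_le_right _ _).trans (le_of_eq ?_))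
    rw [one_div, inv_pow]; ring
  refine (ENNReal.tsum_le_tsum h1).trans_lt ?_
  have h2 : Summable fun k : ℕ => 6 * (1 / 4 : ℝ) ^ k :=
    (summable_geometric_of_lt_one (by norm_num) (by norm_num)).mul_left 6
  rw [ENNReal.tsum_prod', ENNReal.tsum_comm, tsum_fintype]
  refine ENNReal.sum_lt_top.2 fun _ _ => ?_
  exact (Summable.tsum_ofReal_ne_top h2).lt_top

end Vale.Agent.P189
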