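import Vale.Agent.P189.High
import Vale.Agent.P189.Low

/-! A countable group without fixed price. -/

namespace Vale.Agent.P189

theorem main : ∃ (G : Type) (_ : Group G) (_ : Countable G) (a b : PmpAction G),
    a.EssFree ∧ b.EssFree ∧ a.cost < ⊤ ∧ b.cost = ⊤ := by
  obtain ⟨G, _, _, ⟨T⟩⟩ := exists_tower
  have : Infinite G := Infinite.of_injective _ (T.inj 0)
  obtain ⟨b, h1, h2, h3⟩ := exists_bernoulli T.torsionFree
  obtain ⟨a, h4, h5⟩ := exists_low T b h1
  exact ⟨G, _, inferInstance, a, b, h4, h1, h5, cost_top T b h1 h2 h3⟩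

end Vale.Agent.P189
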