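import Vale.Agent.P189.Rays

/-! The folding process, its potential and the measure of the bad set. -/

namespace Vale.Agent.P189

open Finset MeasureTheory
open scoped ENNReal

section Mf

variable {X α β : Type} [MeasurableSpace X]

def Mf (f : X → α) : Prop := ∀ a, MeasurableSet (f ⁻¹' {a})

theorem Mf.meas [Countable α] [MeasurableSpace β] {l : X → α} {f : X → β} (hl : Mf l)
    (h : ∀ x y, l x = l y → f x = f y) : Measurable f := fun s _ => by
  have : f ⁻¹' s = ⋃ a ∈ {a | ∃ x, l x = a ∧ f x ∈ s}, l ⁻¹' {a} := by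
    ext x
    simp only [Set.mem_preimage, Set.mem_iUnion, Set.mem_singleton_iff]
    exact ⟨fun k => ⟨_, ⟨x, rfl, k⟩, rfl⟩, fun ⟨a, ⟨y, k1, k2⟩, k3⟩ => h y x (k1.trans k3.symm) ▸ k2⟩
  rw [this]
  exact MeasurableSet.biUnion (Set.to_countable _) fun a _ => hl a

theorem Mf.dep [Countable α] {l : X → α} {f : X → β} (hl : Mf l)
    (h : ∀ x y, l x = l y → f x = f y) : Mf f := fun _ =>
  @Mf.meas _ _ _ _ _ ⊤ _ _ hl h _ trivial

theorem Mf.prod {f : X → α} {g : X → β} (hf : Mf f) (hg : Mf g) : Mf fun x => (f x, g x) :=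
  fun a => by
  have : (fun x => (f x, g x)) ⁻¹' {a} = f ⁻¹' {a.1} ∩ g ⁻¹' {a.2} := by
    ext x; simp [Prod.ext_iff]
  exact this ▸ (hf _).inter (hg _)

theorem Mf.pi [Countable β] {f : X → β → α} (hf : ∀ i, Mf fun x => f x i) : Mf f := fun a => by
  have : f ⁻¹' {a} = ⋂ i, (fun x => f x i) ⁻¹' {a i} := by
    ext x; simp [funext_iff]
  exact this ▸ MeasurableSet.iInter fun i => hf i _

theorem Mf.mem {s : Set X} (hs : MeasurableSet s) : Mf fun x => x ∈ s :=
  fun a => (measurable_mem.2 hs) (measurableSet_singleton a)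

theorem Mf.comp {f : X → α} (hf : Mf f) {T : X → X} (hT : Measurable T) : Mf fun x => f (T x) :=
  fun a => hT (hf a)

theorem lint_card {J : Type} (μ : Measure X) (s : Finset J) (P : J → X → Prop)
    [∀ j x, Decidable (P j x)] (hP : ∀ j, Measurable (P j)) :
    ∫⁻ x, ((s.filter fun j => P j x).card : ℝ≥0∞) ∂μ = ∑ j ∈ s, μ {x | P j x} := by
  have e : ∀ x, ((s.filter fun j => P j x).card : ℝ≥0∞) =
      ∑ j ∈ s, Set.indicator {x | P j x} 1 x := fun x => by
    rw [card_filter]
    push_cast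
    exact sum_congr rfl fun j _ => by simp [Set.indicator_apply]
  simp_rw [e]
  rw [lintegral_finsetSum _ fun j _ => measurable_one.indicator (measurableSet_setOfPred.2 (hP j))]
  exact sum_congr rfl fun j _ => lintegral_indicator_one (measurableSet_setOfPred.2 (hP j))

end Mf

namespace DG

variable {X V H : Type} [Fintype V] [Fintype H] [MeasurableSpace X] (D : DG X V H) (μ : Measure X)

open Classical

structure Ok : Prop where
  mv : ∀ d, MeasurePreserving (D.mv d) μ μ
  DH : ∀ h, MeasurableSet (D.DH h)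
  DV : ∀ v, MeasurableSet (D.DV v)

def loc (c : X → V → V) (x : X) : (V → V) × (Dir → V → V) × (H → Prop) × (V → Prop) :=
  (c x, fun d => c (D.mv d x), fun h => x ∈ D.DH h, fun v => x ∈ D.DV v)

variable {D μ}

theorem Ok.loc (ok : D.Ok μ) {c : X → V → V} (hc : Mf c) : Mf (D.loc c) :=
  hc.prod ((Mf.pi fun d => hc.comp (ok.mv d).measurable).prod
    ((Mf.pi fun h => Mf.mem (ok.DH h)).prod (Mf.pi fun v => Mf.mem (ok.DV v))))

omit [MeasurableSpace X] in
theorem loc_congr {c : X → V → V} {x y : X} (h : D.loc c x = D.loc c y) :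
    c x = c y ∧ D.TH c x = D.TH c y ∧ D.TV c x = D.TV c y ∧ D.Df c x = D.Df c y ∧
      D.SD c x = D.SD c y := by
  simp only [DG.loc, Prod.mk.injEq, funext_iff (β := fun _ => V → V),
    funext_iff (β := fun _ => Prop)] at h
  obtain ⟨h1, h2, h3, h4⟩ := h
  have a : D.TH c x = D.TH c y := by
    unfold TH tri
    simp only [h1, h2, h3]
  have b : D.Df c x = D.Df c y := by
    funext u
    simp only [Df, deg, a, h1]
  exact ⟨h1, a, by simp only [TV, h1, h4], b, by simp only [SD, a, b]⟩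

theorem Ok.eff (ok : D.Ok μ) {c : X → V → V} (hc : Mf c) (h h' : H) {E : Set X}
    (hE : MeasurableSet E) : MeasurableSet (D.Eff c h h' E) := by
  refine measurable_mem.1 (((ok.loc hc).prod (Mf.mem hE)).meas fun x y e => ?_)
  simp only [DG.loc, Prod.mk.injEq, funext_iff (β := fun _ => V → V),
    funext_iff (β := fun _ => Prop)] at e
  obtain ⟨⟨h1, h2, h3, -⟩, h4⟩ := e
  simp only [Eff, Set.mem_ofPred_eq, h1, h2, h3, h4]

theorem Ok.fold (ok : D.Ok μ) {c : X → V → V} (hc : Mf c) (h h' : H) {E : Set X}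
    (hE : MeasurableSet E) : Mf (D.fold c h h' E) := by
  refine (hc.prod ((Mf.mem (ok.eff hc h h' hE)).comp (ok.mv (D.dir h).inv).measurable)).dep
    fun x y e => ?_
  simp only [Prod.mk.injEq] at e
  funext v
  simp only [DG.fold, rho, e.1, e.2]

def Pot (D : DG X V H) (μ : Measure X) (c : X → V → V) (ε : ℝ≥0∞) : Prop :=
  ∫⁻ x, (D.TH c x).card ∂μ ≤ 2 * ∫⁻ x, (D.TV c x).card ∂μ + 2 + 2 * ε

theorem lint_ite (μ : Measure X) (f : X → ℕ) {s : Set X} (hs : MeasurableSet s) :
    ∫⁻ x, ((f x + if x ∈ s then 1 else 0 : ℕ) : ℝ≥0∞) ∂μ = ∫⁻ x, f x ∂μ + μ s := by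
  rw [← lintegral_indicator_one hs, ← lintegral_add_right _ (measurable_one.indicator hs)]
  refine lintegral_congr fun x => ?_
  by_cases h : x ∈ s <;> simp [h]

omit [Fintype V] in
theorem Ok.TH_le (ok : D.Ok μ) (c : X → V → V) :
    ∫⁻ x, (D.TH c x).card ∂μ ≤ ∑ h, μ (D.DH h) :=
  (lintegral_mono fun _ => Nat.cast_le.2 card_image_le).trans (le_of_eq
    (lint_card μ _ (fun h x => x ∈ D.DH h) fun h => measurable_mem.2 (ok.DH h)))

omit [Fintype H] in
theorem Ok.TV_id (ok : D.Ok μ) : ∫⁻ x, (D.TV (fun _ v => v) x).card ∂μ = ∑ v, μ (D.DV v) := by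
  simp only [TV, image_id']
  exact lint_card μ _ (fun h x => x ∈ D.DV h) fun h => measurable_mem.2 (ok.DV h)

variable [IsProbabilityMeasure μ]

theorem Ok.pot_fold (ok : D.Ok μ) {c : X → V → V} (hc : Mf c) (h h' : H) {E : Set X}
    (hE : MeasurableSet E) {ε : ℝ≥0∞} (hp : Pot D μ c ε) : Pot D μ (D.fold c h h' E) ε := by
  have m := ok.eff hc h h' hE
  have m' := (ok.mv (D.dir h).inv).measurable m
  have e := (ok.mv (D.dir h).inv).measure_preimage m.nullMeasurableSet
  have a : ∫⁻ x, (D.TH (D.fold c h h' E) x).card ∂μ + μ (D.Eff c h h' E) + μ (D.Eff c h h' E) ≤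
      ∫⁻ x, (D.TH c x).card ∂μ := by
    rw [← lint_ite μ _ m]
    nth_rewrite 1 [← e]
    rw [← lint_ite μ _ m']
    exact lintegral_mono fun x => Nat.cast_le.2 (D.TH_fold c h h' E x)
  have b : ∫⁻ x, (D.TV c x).card ∂μ ≤
      ∫⁻ x, (D.TV (D.fold c h h' E) x).card ∂μ + μ (D.Eff c h h' E) := by
    rw [← e, ← lint_ite μ _ m']
    exact lintegral_mono fun x => Nat.cast_le.2 (D.TV_fold c h h' E x)
  have f := measure_ne_top μ (D.Eff c h h' E)
  unfold Pot at hp ⊢
  refine (ENNReal.add_le_add_iff_right f).1 ((ENNReal.add_le_add_iff_right f).1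
    (a.trans (hp.trans ?_)))
  calc _ ≤ 2 * (∫⁻ x, (D.TV (D.fold c h h' E) x).card ∂μ + μ (D.Eff c h h' E)) + 2 + 2 * ε := by
        gcongr
    _ = _ := by ring

theorem Ok.sd_le (ok : D.Ok μ) {c : X → V → V} (hc : Mf c) {ε : ℝ≥0∞} (hp : Pot D μ c ε) :
    ∫⁻ x, (D.SD c x).card ∂μ ≤ 10 * ε := by
  have m : Measurable fun x => ((D.TV c x).card : ℝ≥0∞) :=
    (ok.loc hc).meas fun x y e => by rw [(loc_congr e).2.2.1]
  have f : ∫⁻ x, (D.TV c x).card ∂μ ≠ ⊤ := by
    refine ne_top_of_le_ne_top (b := ∫⁻ _x, (Fintype.card V : ℝ≥0∞) ∂μ) (by simp)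
      (lintegral_mono fun x => Nat.cast_le.2 (card_le_univ _))
  have a : 10 * ∫⁻ x, (D.TV c x).card ∂μ + 10 + ∫⁻ x, (D.SD c x).card ∂μ ≤
      5 * ∫⁻ x, (D.TH c x).card ∂μ := by
    have t : (10 : ℝ≥0∞) = ∫⁻ _x, 10 ∂μ := by simp
    rw [← lintegral_const_mul _ m, ← lintegral_const_mul' _ _ (by simp)]
    nth_rewrite 2 [t]
    rw [← lintegral_add_right _ measurable_const,
      ← lintegral_add_left ((m.const_mul _).add_const _)]
    refine lintegral_mono fun x => ?_
    have := (Nat.cast_le (α := ℝ≥0∞)).2 (D.count c x)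
    push_cast at this
    exact this
  have f' : 10 * ∫⁻ x, (D.TV c x).card ∂μ + 10 ≠ ⊤ :=
    ENNReal.add_ne_top.2 ⟨ENNReal.mul_ne_top (by simp) f, by simp⟩
  refine (ENNReal.add_le_add_iff_left f').1 (a.trans ?_)
  calc _ ≤ 5 * (2 * ∫⁻ x, (D.TV c x).card ∂μ + 2 + 2 * ε) := by gcongr; exact hp
    _ = _ := by ring

omit [Fintype V] [Fintype H] [IsProbabilityMeasure μ] in
theorem Ok.fw (ok : D.Ok μ) (w : ℕ → Dir) (i : ℕ) : MeasurePreserving (D.fw w i) μ μ := by
  induction i with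
  | zero => exact MeasurePreserving.id μ
  | succ i ih => exact (ok.mv _).comp ih

omit [Fintype V] [Fintype H] [IsProbabilityMeasure μ] in
theorem Ok.bw (ok : D.Ok μ) (w : ℕ → Dir) (i : ℕ) : MeasurePreserving (D.bw w i) μ μ := by
  induction i with
  | zero => exact MeasurePreserving.id μ
  | succ i ih => exact ih.comp (ok.mv _)

variable (R : D.Rays)

omit [IsProbabilityMeasure μ] [Fintype H] in
theorem Ok.IB (ok : D.Ok μ) {c : X → V → V} (hc : Mf c) (d : Dir) :
    Measurable fun x => R.IB c x d :=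
  Measurable.exists fun i => measurable_const.and (measurable_const.and
    ((hc.comp (ok.fw (R.l d) i).measurable).meas fun x y e => by rw [e]))

omit [IsProbabilityMeasure μ] in
theorem Ok.badAt (ok : D.Ok μ) {c : X → V → V} (hc : Mf c) (d : Dir) (f : ℕ) :
    Measurable fun x => R.BadAt c x d f := by
  have a : ∀ i, Measurable fun x => R.SpAt c x d i := fun i =>
    ((ok.loc hc).comp (ok.fw (R.l d) i).measurable).meas fun x y e => by
      simp only [Rays.SpAt, Sp, (loc_congr e).1, (loc_congr e).2.2.2.1]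
  exact (measurable_const.and (measurable_const.and ((a f).and (Measurable.forall fun i =>
    measurable_const.imp (measurable_const.imp (a i).not))))).and
    (((ok.loc hc).comp (ok.fw (R.l d) f).measurable).meas fun x y e => by
      simp only [(loc_congr e).1, (loc_congr e).2.2.2.1])

theorem Ok.bad_le (ok : D.Ok μ) {c : X → V → V} (hc : Mf c) {ε : ℝ≥0∞} (hp : Pot D μ c ε) :
    μ {x | R.Bad c x} ≤ 50 * ε := by
  have s := ok.sd_le hc hp
  have a : μ {x | D.Df c x (c x D.base)} ≤ 10 * ε := by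
    have m : MeasurableSet {x | D.Df c x (c x D.base)} := measurableSet_setOfPred.2
      ((ok.loc hc).meas fun x y e => by simp only [(loc_congr e).1, (loc_congr e).2.2.2.1])
    rw [← lintegral_indicator_one m]
    refine le_trans (lintegral_mono fun x => ?_) s
    by_cases h : D.Df c x (c x D.base)
    · simpa [h] using Rays.bad_base h
    · simp [h]
  have b : ∀ d, μ (⋃ f ∈ range R.L, {x | R.BadAt c x d f}) ≤ 10 * ε := fun d => by
    refine (measure_biUnion_finset_le _ _).trans (le_trans ?_ s)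
    refine le_trans (le_of_eq ?_) (lintegral_mono fun x => Nat.cast_le.2 (R.bad_card c x d))
    rw [lint_card μ _ (fun f x => R.BadAt c (D.bw (R.l d) f x) d f)
      fun f => (ok.badAt R hc d f).comp (ok.bw (R.l d) f).measurable]
    exact sum_congr rfl fun f _ => ((ok.bw (R.l d) f).measure_preimage
      (measurableSet_setOfPred.2 (ok.badAt R hc d f)).nullMeasurableSet).symm
  have e : {x | R.Bad c x} ⊆ {x | D.Df c x (c x D.base)} ∪
      ⋃ d, ⋃ f ∈ range R.L, {x | R.BadAt c x d f} := fun x hx =>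
    hx.imp id fun ⟨d, f, k⟩ => by
      simp only [Set.mem_iUnion]
      exact ⟨d, f, mem_range.2 k.1.2.1, k⟩
  refine (measure_mono e).trans ((measure_union_le _ _).trans ?_)
  calc _ ≤ 10 * ε + ∑ _d : Dir, 10 * ε := by
        gcongr
        exact (measure_iUnion_fintype_le _ _).trans (sum_le_sum fun d _ => b d)
    _ = _ := by simp; ring

theorem Ok.inv_le (ok : D.Ok μ) {c : X → V → V} (hc : Mf c) {ε : ℝ≥0∞} (hp : Pot D μ c ε)
    (s : Bool) : μ {x | ¬ (R.IB c x (true, true) ↔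
      R.IB c (D.fw (R.l (s, true)) R.L x) (true, true))} ≤ 100 * ε := by
  have a := ok.bad_le R hc hp
  have b := ((ok.fw (R.l (s, true)) R.L).measure_preimage_le {x | R.Bad c x}).trans a
  refine le_trans (measure_mono (t := {x | R.Bad c x} ∪
    D.fw (R.l (s, true)) R.L ⁻¹' {x | R.Bad c x}) fun x hx => ?_) ((measure_union_le _ _).trans ?_)
  · by_contra hn
    exact hx (R.inv_step s (fun k => hn (Or.inl k)) fun k => hn (Or.inr k))
  · calc _ ≤ 50 * ε + 50 * ε := add_le_add a b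
      _ = _ := by ring

end DG

end Vale.Agent.P189
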