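import Vale.Agent.P189.Meas

/-! The sweepout by folding, and reading words in the folded limit. -/

namespace Vale.Agent.P189

open Finset MeasureTheory
open scoped ENNReal

namespace DG

variable {X V H : Type} (D : DG X V H)

structure Closed (Q : X → V → V → Prop) : Prop where
  refl : ∀ x v, Q x v v
  symm : ∀ {x v u}, Q x v u → Q x u v
  trans : ∀ {x v u w}, Q x v u → Q x u w → Q x v w
  fold : ∀ {x h h'}, x ∈ D.DH h → x ∈ D.DH h' → D.dir h = D.dir h' → Q x (D.org h) (D.org h') →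
    Q (D.mv (D.dir h) x) (D.org (D.rev h)) (D.org (D.rev h'))

def Stp (Q : X → V → V → Prop) (x : X) (d : Dir) (v u : V) : Prop :=
  ∃ h, x ∈ D.DH h ∧ D.dir h = d ∧ Q x (D.org h) v ∧ Q (D.mv d x) (D.org (D.rev h)) u

def Reach (Q : X → V → V → Prop) : List Dir → X → V → X → V → Prop
  | [], y, v, z, u => y = z ∧ Q y v u
  | d :: w, y, v, z, u => ∃ v', D.Stp Q y d v v' ∧ Reach Q w (D.mv d y) v' z u

section Reach

variable {D} {Q : X → V → V → Prop} (hQ : D.Closed Q)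
include hQ

theorem Closed.stp_det {x : X} {d : Dir} {v v' u u' : V} (a : D.Stp Q x d v u) (b : D.Stp Q x d v' u')
    (e : Q x v v') : Q (D.mv d x) u u' := by
  obtain ⟨h, a1, rfl, a3, a4⟩ := a
  obtain ⟨h', b1, b2, b3, b4⟩ := b
  exact hQ.trans (hQ.symm a4) (hQ.trans (hQ.fold a1 b1 b2.symm
    (hQ.trans a3 (hQ.trans e (hQ.symm b3)))) b4)

omit hQ in
theorem stp_inv {x : X} {d : Dir} {v u : V} (a : D.Stp Q x d v u) :
    D.Stp Q (D.mv d x) d.inv u v := by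
  obtain ⟨h, a1, rfl, a3, a4⟩ := a
  exact ⟨D.rev h, D.DH_rev _ _ a1, D.dir_rev h, a4, by rwa [D.mv_inv, D.rev_rev]⟩

theorem Closed.left {w : List Dir} {y z : X} {v v' u : V} (a : D.Reach Q w y v z u) (e : Q y v v') :
    D.Reach Q w y v' z u := by
  cases w with
  | nil => exact ⟨a.1, hQ.trans (hQ.symm e) a.2⟩
  | cons d w =>
    obtain ⟨t, ⟨h, a1, a2, a3, a4⟩, b⟩ := a
    exact ⟨t, ⟨h, a1, a2, hQ.trans a3 e, a4⟩, b⟩

theorem Closed.append {w w' : List Dir} {y z : X} {v u : V} :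
    D.Reach Q (w ++ w') y v z u ↔ ∃ x t, D.Reach Q w y v x t ∧ D.Reach Q w' x t z u := by
  induction w generalizing y v with
  | nil => exact ⟨fun a => ⟨y, v, ⟨rfl, hQ.refl _ _⟩, a⟩,
      fun ⟨x, t, ⟨a, b⟩, c⟩ => hQ.left (a ▸ c) (hQ.symm b)⟩
  | cons d w ih =>
    exact ⟨fun ⟨v', a, b⟩ => let ⟨x, t, c, e⟩ := ih.1 b; ⟨x, t, ⟨v', a, c⟩, e⟩,
      fun ⟨x, t, ⟨v', a, c⟩, e⟩ => ⟨v', a, ih.2 ⟨x, t, c, e⟩⟩⟩

theorem Closed.det {w : List Dir} {y z z' : X} {v v' u u' : V} (a : D.Reach Q w y v z u)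
    (b : D.Reach Q w y v' z' u') (e : Q y v v') : z = z' ∧ Q z u u' := by
  induction w generalizing y v v' with
  | nil => exact ⟨a.1.symm.trans b.1, a.1 ▸ hQ.trans (hQ.symm a.2) (hQ.trans e b.2)⟩
  | cons d w ih =>
    obtain ⟨t, a1, a2⟩ := a
    obtain ⟨t', b1, b2⟩ := b
    exact ih a2 b2 (hQ.stp_det a1 b1 e)

theorem Closed.red {w w' : List Dir} (h : FreeGroup.Red w w') {y z : X} {v u : V}
    (a : D.Reach Q w y v z u) : D.Reach Q w' y v z u := by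
  induction h with
  | refl => exact a
  | tail _ k ih =>
    cases k with
    | @not L1 L2 s b =>
      obtain ⟨x, t, c, t1, c1, t2, c2, c3⟩ := hQ.append.1 ih
      have e : D.mv (s, !b) (D.mv (s, b) x) = x := D.mv_inv (s, b) x
      have := hQ.stp_det c2 (stp_inv c1) (hQ.refl _ _)
      rw [e] at this c3
      exact hQ.append.2 ⟨x, t, c, hQ.left c3 this⟩

theorem Closed.invRev {w : List Dir} {y z : X} {v u : V} (a : D.Reach Q w y v z u) :
    D.Reach Q (FreeGroup.invRev w) z u y v := by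
  induction w generalizing y v with
  | nil => exact ⟨a.1.symm, a.1 ▸ hQ.symm a.2⟩
  | cons d w ih =>
    obtain ⟨t, a1, a2⟩ := a
    rw [FreeGroup.invRev_cons]
    exact hQ.append.2 ⟨_, _, ih a2, v, stp_inv a1, D.mv_inv d y, hQ.refl _ _⟩

omit hQ in
def RG (D : DG X V H) (Q : X → V → V → Prop) (g : FreeGroup Bool) (y : X) (v : V) (z : X) (u : V) :
    Prop := ∃ w, FreeGroup.mk w = g ∧ D.Reach Q w y v z u

theorem Closed.rg_one (y : X) (v : V) : D.RG Q 1 y v y v := ⟨[], rfl, rfl, hQ.refl _ _⟩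

theorem Closed.rg_mul {g g' : FreeGroup Bool} {y x z : X} {v t u : V} (a : D.RG Q g y v x t)
    (b : D.RG Q g' x t z u) : D.RG Q (g * g') y v z u := by
  obtain ⟨w, rfl, a⟩ := a
  obtain ⟨w', rfl, b⟩ := b
  exact ⟨w ++ w', FreeGroup.mul_mk.symm, hQ.append.2 ⟨_, _, a, b⟩⟩

theorem Closed.rg_inv {g : FreeGroup Bool} {y z : X} {v u : V} (a : D.RG Q g y v z u) :
    D.RG Q g⁻¹ z u y v := by
  obtain ⟨w, rfl, a⟩ := a
  exact ⟨_, FreeGroup.inv_mk.symm, hQ.invRev a⟩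

theorem Closed.rg_det {g : FreeGroup Bool} {y z z' : X} {v u u' : V} (a : D.RG Q g y v z u)
    (b : D.RG Q g y v z' u') : z = z' ∧ Q z u u' := by
  obtain ⟨w, rfl, a⟩ := a
  obtain ⟨w', e, b⟩ := b
  have a' := hQ.red FreeGroup.reduce.red a
  rw [← FreeGroup.reduce.sound e] at a'
  exact hQ.det a' (hQ.red FreeGroup.reduce.red b) (hQ.refl _ _)

theorem Closed.rg_dart {x : X} {h : H} (a : x ∈ D.DH h) :
    D.RG Q (FreeGroup.mk [D.dir h]) x (D.org h) (D.mv (D.dir h) x) (D.org (D.rev h)) :=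
  ⟨_, rfl, _, ⟨h, a, rfl, hQ.refl _ _, hQ.refl _ _⟩, rfl, hQ.refl _ _⟩

end Reach

noncomputable def st (E : ℕ → Set X) (σ : ℕ → H × H × ℕ) : ℕ → X → V → V
  | 0 => fun _ v => v
  | t + 1 => D.fold (st E σ t) (σ t).1 (σ t).2.1 (E (σ t).2.2)

theorem st_mono (E : ℕ → Set X) (σ : ℕ → H × H × ℕ) {t t' : ℕ} (h : t ≤ t') {x : X} {v u : V}
    (e : D.st E σ t x v = D.st E σ t x u) : D.st E σ t' x v = D.st E σ t' x u := by
  induction h with
  | refl => exact e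
  | step _ ih => simp only [st, fold, ih]

theorem st_closed (E : ℕ → Set X) (σ : ℕ → H × H × ℕ) (hE : ∀ x, ∃ j, x ∈ E j)
    (hσ : ∀ θ t, ∃ t', t ≤ t' ∧ σ t' = θ) :
    D.Closed fun x v u => ∃ t, D.st E σ t x v = D.st E σ t x u where
  refl _ _ := ⟨0, rfl⟩
  symm := fun ⟨t, e⟩ => ⟨t, e.symm⟩
  trans := fun ⟨t, e⟩ ⟨t', e'⟩ => ⟨max t t',
    (D.st_mono E σ (le_max_left _ _) e).trans (D.st_mono E σ (le_max_right _ _) e')⟩
  fold := fun {x h h'} a a' b ⟨t, e⟩ => by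
    obtain ⟨j, hj⟩ := hE x
    obtain ⟨t', k, k'⟩ := hσ (h, h', j) t
    by_cases n : D.st E σ t' (D.mv (D.dir h) x) (D.org (D.rev h)) =
      D.st E σ t' (D.mv (D.dir h) x) (D.org (D.rev h'))
    · exact ⟨t', n⟩
    · refine ⟨t' + 1, ?_⟩
      simp only [st, k']
      exact D.fold_on (by rw [D.mv_inv]; exact ⟨hj, a, a', b, D.st_mono E σ k e, n⟩)

variable {D} [Fintype V] [Fintype H] [MeasurableSpace X] {μ : Measure X} [IsProbabilityMeasure μ]

theorem sweep (ok : D.Ok μ) (R : D.Rays)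
    (hcov : ∀ η : ℝ≥0∞, 0 < η → ∃ E : ℕ → Set X, (∀ j, MeasurableSet (E j)) ∧ (∀ j, μ (E j) ≤ η) ∧
      ∀ x, ∃ j, x ∈ E j) {ε : ℝ≥0∞} (h0 : Pot D μ (fun _ v => v) ε) (S : Set X) (hS : 1 / 4 < μ S)
    (i : ℕ) (i0 : 0 < i) (i1 : i < R.L) (conn : ∀ Q, D.Closed Q → ∀ x ∈ S,
      Q (D.fw (R.l (true, true)) i x) (R.r (true, true) i) D.base) :
    ∃ B : Set X, MeasurableSet B ∧ 1 / 4 ≤ μ B ∧ μ B ≤ 3 / 4 ∧ ∀ s : Bool,
      μ {x | ¬ (x ∈ B ↔ D.fw (R.l (s, true)) R.L x ∈ B)} ≤ 100 * ε := by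
  classical
  have L0 : (R.L : ℝ≥0∞) ≠ 0 := Nat.cast_ne_zero.2 R.L_pos.ne'
  obtain ⟨E, E1, E2, E3⟩ := hcov (1 / 2 / R.L) (ENNReal.div_pos (by simp) (by simp))
  have : Nonempty H := ⟨D.bd (true, true)⟩
  obtain ⟨f, hf⟩ := exists_surjective_nat (H × H × ℕ)
  obtain ⟨σ, hσ⟩ : ∃ σ : ℕ → H × H × ℕ, ∀ θ t, ∃ t', t ≤ t' ∧ σ t' = θ :=
    ⟨fun t => f t.unpair.1, fun θ t => by
      obtain ⟨n, rfl⟩ := hf θ
      exact ⟨n.pair t, Nat.right_le_pair _ _, by simp⟩⟩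
  have inv : ∀ t, Mf (D.st E σ t) ∧ Pot D μ (D.st E σ t) ε := fun t => by
    induction t with
    | zero => exact ⟨fun a => MeasurableSet.const ((fun v => v) = a), h0⟩
    | succ t ih => exact ⟨ok.fold ih.1 _ _ (E1 _), ok.pot_fold ih.1 _ _ (E1 _) ih.2⟩
  obtain ⟨B, hB⟩ : ∃ B : ℕ → Set X, ∀ t, B t = {x | R.IB (D.st E σ t) x (true, true)} :=
    ⟨_, fun _ => rfl⟩
  have mono : Monotone B := fun t t' h x hx => by
    rw [hB] at hx ⊢
    obtain ⟨j, j0, j1, e⟩ := hx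
    exact ⟨j, j0, j1, D.st_mono E σ h e⟩
  have ex : ∃ t, 1 / 4 < μ (B t) := by
    rw [← lt_iSup_iff, ← mono.measure_iUnion]
    refine hS.trans_le (measure_mono fun x hx => ?_)
    obtain ⟨t, e⟩ := conn _ (D.st_closed E σ E3 hσ) x hx
    exact Set.mem_iUnion.2 ⟨t, hB t ▸ ⟨i, i0, i1, e⟩⟩
  have z : B 0 = ∅ := by
    rw [hB]
    exact Set.eq_empty_of_forall_notMem fun x ⟨j, j0, j1, e⟩ => R.r_ne _ j j0 j1 e
  have step : ∀ t, μ (B (t + 1)) ≤ μ (B t) + 1 / 2 := fun t => by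
    have : B (t + 1) ⊆ B t ∪ ⋃ j ∈ range R.L, D.fw (R.l (true, true)) j ⁻¹'
        (D.mv (D.dir (σ t).1).inv ⁻¹' E (σ t).2.2) := fun x hx => by
      rw [hB] at hx ⊢
      obtain ⟨j, j0, j1, e⟩ := hx
      by_cases n : D.mv (D.dir (σ t).1).inv (D.fw (R.l (true, true)) j x) ∈
        D.Eff (D.st E σ t) (σ t).1 (σ t).2.1 (E (σ t).2.2)
      · exact Or.inr (Set.mem_biUnion (mem_range.2 j1) n.1)
      · exact Or.inl ⟨j, j0, j1, by simpa only [st, D.fold_off n] using e⟩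
    refine (measure_mono this).trans ((measure_union_le _ _).trans ?_)
    gcongr
    refine (measure_biUnion_finset_le _ _).trans ((sum_le_card_nsmul _ _ (1 / 2 / (R.L : ℝ≥0∞)) fun j _ =>
      ((ok.fw _ j).measure_preimage_le _).trans (((ok.mv _).measure_preimage_le _).trans
        (E2 _))).trans (le_of_eq ?_))
    rw [card_range, nsmul_eq_mul, ENNReal.mul_div_cancel L0 (by simp)]
  obtain ⟨t, ht⟩ : ∃ t, Nat.find ex = t + 1 := Nat.exists_eq_succ_of_ne_zero fun e => by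
    have := Nat.find_spec ex
    rw [e, z] at this
    simp at this
  have a := Nat.find_spec ex
  have b := not_lt.1 (Nat.find_min ex (m := t) (by omega))
  rw [ht] at a
  refine ⟨B (t + 1), hB _ ▸ measurableSet_setOfPred.2 (ok.IB R (inv _).1 _), a.le,
    (step t).trans ((add_le_add_left b _).trans (le_of_eq ?_)), fun s => ?_⟩
  · rw [← ENNReal.toReal_eq_toReal_iff' (by simp) (by simp [ENNReal.div_eq_top]),
      ENNReal.toReal_add (by simp) (by simp)]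
    norm_num
  · rw [hB]
    exact ok.inv_le R (inv _).1 (inv _).2 s

end DG

end Vale.Agent.P189
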