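import Vale.Agent.P189.Fold

/-! Four long rays at every point and the propagation of broken rays. -/

namespace Vale.Agent.P189

open Finset

namespace DG

variable {X V H : Type} (D : DG X V H)

structure Rays where
  L : ℕ
  L_pos : 0 < L
  ρ : Dir → ℕ → H
  r : Dir → ℕ → V
  l : Dir → ℕ → Dir
  mem : ∀ d i x, x ∈ D.DH (ρ d i)
  org_ρ : ∀ d, ∀ i < L, D.org (ρ d i) = r d i
  org_rev : ∀ d, ∀ i < L, D.org (D.rev (ρ d i)) = r d (i + 1)
  dir_ρ : ∀ d, ∀ i < L, D.dir (ρ d i) = l d i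
  r_zero : ∀ d, r d 0 = D.base
  r_last : ∀ d, r d L = D.base
  l_zero : ∀ d, l d 0 = d
  sign : ∀ d i, (l d i).2 = d.2
  border : ∀ d e p, 0 < p → p < L → (∀ i < p, l e i = (l d (p - 1 - i)).inv) → l e p = d.nu
  l_sym : ∀ s, ∀ i < L, l (s, false) i = (l (s, true) (L - 1 - i)).inv
  r_sym : ∀ s, ∀ i ≤ L, r (s, false) i = r (s, true) (L - i)
  r_ne : ∀ d i, 0 < i → i < L → r d i ≠ D.base

variable {D} [Fintype H] (R : D.Rays)

namespace Rays

open Classical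

def IB (c : X → V → V) (x : X) (d : Dir) : Prop :=
  ∃ i, 0 < i ∧ i < R.L ∧ c (D.fw (R.l d) i x) (R.r d i) = c (D.fw (R.l d) i x) D.base

def SpAt (c : X → V → V) (x : X) (d : Dir) (i : ℕ) : Prop :=
  D.Sp c (D.fw (R.l d) i x) (c (D.fw (R.l d) i x) (R.r d i))

def First (c : X → V → V) (x : X) (d : Dir) (f : ℕ) : Prop :=
  0 < f ∧ f < R.L ∧ R.SpAt c x d f ∧ ∀ i, 0 < i → i < f → ¬ R.SpAt c x d i

def BadAt (c : X → V → V) (x : X) (d : Dir) (f : ℕ) : Prop :=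
  R.First c x d f ∧ D.Df c (D.fw (R.l d) f x) (c (D.fw (R.l d) f x) (R.r d f))

def Bad (c : X → V → V) (x : X) : Prop := D.Df c x (c x D.base) ∨ ∃ d f, R.BadAt c x d f

theorem exists_first {c : X → V → V} {x : X} {d : Dir} (h : ∃ i, 0 < i ∧ i < R.L ∧ R.SpAt c x d i) :
    ∃ f, R.First c x d f :=
  ⟨Nat.find h, (Nat.find_spec h).1, (Nat.find_spec h).2.1, (Nat.find_spec h).2.2,
    fun _ h0 hi hs => Nat.find_min h hi ⟨h0, hi.trans (Nat.find_spec h).2.1, hs⟩⟩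

theorem first_base {c : X → V → V} {x : X} (hb : ¬ R.Bad c x) {d : Dir} {f : ℕ}
    (hf : R.First c x d f) : c (D.fw (R.l d) f x) (R.r d f) = c (D.fw (R.l d) f x) D.base ∧
      ¬ D.Df c (D.fw (R.l d) f x) (c (D.fw (R.l d) f x) D.base) := by
  have n : ¬ D.Df c (D.fw (R.l d) f x) (c (D.fw (R.l d) f x) (R.r d f)) :=
    fun k => hb (Or.inr ⟨d, f, hf, k⟩)
  have e := hf.2.2.1.resolve_right n
  exact ⟨e, e ▸ n⟩

omit [Fintype H] in
theorem back_step (d : Dir) (x : X) {f i : ℕ} (hf : f ≤ R.L) (hi : i < f) :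
    D.fw (R.l d) (f - i) x ∈ D.DH (D.rev (R.ρ d (f - 1 - i))) ∧
    D.fw (R.l d) (f - (i + 1)) x =
      D.mv (D.dir (D.rev (R.ρ d (f - 1 - i)))) (D.fw (R.l d) (f - i) x) ∧
    D.org (D.rev (R.ρ d (f - 1 - i))) = R.r d (f - i) ∧
    D.org (D.rev (D.rev (R.ρ d (f - 1 - i)))) = R.r d (f - (i + 1)) ∧
    D.dir (D.rev (R.ρ d (f - 1 - i))) = (R.l d (f - 1 - i)).inv := by
  obtain ⟨j, rfl⟩ : ∃ j, f = j + 1 + i := ⟨f - 1 - i, by omega⟩
  have e1 : j + 1 + i - 1 - i = j := by omega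
  have e2 : j + 1 + i - i = j + 1 := by omega
  have e3 : j + 1 + i - (i + 1) = j := by omega
  have hj : j < R.L := by omega
  rw [e1, e2, e3, D.dir_rev, R.dir_ρ d j hj, D.rev_rev, R.org_rev d j hj, R.org_ρ d j hj]
  refine ⟨?_, (D.mv_inv _ _).symm, rfl, rfl, rfl⟩
  have := D.DH_rev _ _ (R.mem d j (D.fw (R.l d) j x))
  rwa [R.dir_ρ d j hj] at this

theorem nu_step {c : X → V → V} {x : X} (hb : ¬ R.Bad c x) {d : Dir} (h : R.IB c x d) :
    R.IB c x d.nu := by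
  obtain ⟨f, hf⟩ := R.exists_first (h.imp fun i hi => ⟨hi.1, hi.2.1, Or.inl hi.2.2⟩)
  obtain ⟨e1, g1⟩ := R.first_base hb hf
  obtain ⟨f0, fL, -, fm⟩ := hf
  obtain ⟨y, hy⟩ : ∃ y, y = D.fw (R.l d) f x := ⟨_, rfl⟩
  obtain ⟨e, he⟩ : ∃ e, e = (R.l d (f - 1)).inv := ⟨_, rfl⟩
  have bs := fun i (hi : i < f) => R.back_step d x fL.le hi
  have se : e.2 = !d.2 := by rw [he, Dir.inv, R.sign]
  have k1 := D.follow (c := c) (!d.2) f (fun i => D.rev (R.ρ d (f - 1 - i))) (R.ρ e)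
    (fun i => D.fw (R.l d) (f - i) x) (fun i => D.fw (R.l e) i y) (fun i hi => (bs i hi).1)
    (fun i hi => (bs i hi).2.1) (fun i hi => by rw [(bs _ hi).2.2.1, (bs i (by omega)).2.2.2.1])
    (fun i hi => by rw [(bs i hi).2.2.2.2, Dir.inv, R.sign]) (fun i _ => R.mem _ _ _)
    (fun i hi => by rw [R.dir_ρ e i (by omega)]; rfl)
    (fun i hi => by rw [R.org_ρ e _ (by omega), R.org_rev e i (by omega)])
    (fun i hi => by rw [R.dir_ρ e i (by omega), R.sign, se]) hy.symm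
    (D.good_base g1 (bs 0 f0).1 (R.mem _ _ _) (by rw [(bs 0 f0).2.2.1]; exact e1)
      (by rw [R.org_ρ e 0 R.L_pos, R.r_zero])
      (by rw [(bs 0 f0).2.2.2.2, R.dir_ρ e 0 R.L_pos, R.l_zero, he]; rfl))
    (fun i h0 hi => by rw [(bs i hi).2.2.1]; exact fm _ (by omega) (by omega))
  have k2 : R.l e f = d.nu := R.border d e f f0 fL fun i hi => by
    rw [← R.dir_ρ e i (by omega), ← (k1 i hi).1, (bs i hi).2.2.2.2]
  obtain ⟨-, k3, k4⟩ := k1 (f - 1) (by omega)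
  have f1 : f - 1 + 1 = f := by omega
  rw [(bs _ (by omega)).2.2.2.1, R.org_rev e _ (by omega)] at k4
  simp only [f1, Nat.sub_self, R.r_zero] at k3 k4
  by_cases hs : ∃ i, 0 < i ∧ i < R.L ∧ R.SpAt c x d.nu i
  · obtain ⟨g, hg⟩ := R.exists_first hs
    exact ⟨g, hg.1, hg.2.1, (R.first_base hb hg).1⟩
  have sn : d.nu.2 = !d.2 := by
    obtain ⟨s, b⟩ := d
    cases b <;> rfl
  have k5 := D.follow (c := c) (!d.2) (R.L - f) (R.ρ d.nu) (fun i => R.ρ e (f + i))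
    (fun i => D.fw (R.l d.nu) i x) (fun i => D.fw (R.l e) (f + i) y) (fun i _ => R.mem _ _ _)
    (fun i hi => by rw [R.dir_ρ _ i (by omega)]; rfl)
    (fun i hi => by rw [R.org_ρ _ _ (by omega), R.org_rev _ i (by omega)])
    (fun i hi => by rw [R.dir_ρ _ i (by omega), R.sign, sn]) (fun i _ => R.mem _ _ _)
    (fun i hi => by rw [R.dir_ρ e _ (by omega)]; rfl)
    (fun i hi => by rw [R.org_ρ e _ (by omega), R.org_rev e _ (by omega)]; rfl)
    (fun i hi => by rw [R.dir_ρ e _ (by omega), R.sign, se]) k3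
    (D.good_base (fun k => hb (Or.inl k)) (R.mem _ _ _) (R.mem _ _ _)
      (by rw [R.org_ρ _ 0 R.L_pos, R.r_zero]) (by rw [R.org_ρ e _ (by omega)]; exact k4.symm)
      (by rw [R.dir_ρ _ 0 R.L_pos, R.l_zero, R.dir_ρ e _ (by omega)]; exact k2.symm))
    (fun i h0 hi => by rw [R.org_ρ _ i (by omega)]; exact fun k => hs ⟨i, h0, by omega, k⟩)
  obtain ⟨-, -, k6⟩ := k5 (R.L - f - 1) (by omega)
  have f2 : R.L - f - 1 + 1 = R.L - f := by omega
  have f3 : f + (R.L - f - 1) + 1 = R.L := by omega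
  rw [R.org_rev _ _ (by omega), R.org_rev _ _ (by omega), f2, f3, R.r_last] at k6
  exact ⟨R.L - f, by omega, by omega, k6⟩

theorem IB_iff {c : X → V → V} {x : X} (hb : ¬ R.Bad c x) (d : Dir) :
    R.IB c x d ↔ R.IB c x (true, true) := by
  have a : R.IB c x (true, true) → R.IB c x (true, false) := R.nu_step hb
  have b : R.IB c x (true, false) → R.IB c x (false, true) := R.nu_step hb
  have e : R.IB c x (false, true) → R.IB c x (false, false) := R.nu_step hb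
  have f : R.IB c x (false, false) → R.IB c x (true, true) := R.nu_step hb
  obtain ⟨s, t⟩ := d
  cases s <;> cases t <;> tauto

omit [Fintype H] in
theorem fw_sym (s : Bool) (x : X) : ∀ i ≤ R.L,
    D.fw (R.l (s, false)) i (D.fw (R.l (s, true)) R.L x) = D.fw (R.l (s, true)) (R.L - i) x := by
  intro i
  induction i with
  | zero => exact fun _ => rfl
  | succ i ih =>
    intro hi
    obtain ⟨j, hj⟩ : ∃ j, R.L = j + 1 + i := ⟨R.L - 1 - i, by omega⟩
    rw [Mv.fw, ih (by omega), R.l_sym s i (by omega), show R.L - i = j + 1 by omega,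
      show R.L - 1 - i = j by omega, show R.L - (i + 1) = j by omega, Mv.fw, D.mv_inv]

omit [Fintype H] in
theorem IB_sym (c : X → V → V) (s : Bool) (x : X) :
    R.IB c x (s, true) ↔ R.IB c (D.fw (R.l (s, true)) R.L x) (s, false) := by
  constructor
  · rintro ⟨i, h0, h1, h⟩
    refine ⟨R.L - i, by omega, by omega, ?_⟩
    rwa [R.fw_sym s x _ (by omega), R.r_sym s _ (by omega), show R.L - (R.L - i) = i by omega]
  · rintro ⟨i, h0, h1, h⟩
    rw [R.fw_sym s x _ h1.le, R.r_sym s _ h1.le] at h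
    exact ⟨R.L - i, by omega, by omega, h⟩

theorem inv_step {c : X → V → V} {x : X} (s : Bool) (hb : ¬ R.Bad c x)
    (hb' : ¬ R.Bad c (D.fw (R.l (s, true)) R.L x)) :
    R.IB c x (true, true) ↔ R.IB c (D.fw (R.l (s, true)) R.L x) (true, true) := by
  rw [← R.IB_iff hb (s, true), ← R.IB_iff hb' (s, false), R.IB_sym]

theorem bad_lt {c : X → V → V} {z : X} {d : Dir} {f g : ℕ} (hf : R.BadAt c (D.bw (R.l d) f z) d f)
    (hg : R.BadAt c (D.bw (R.l d) g z) d g) (h : f < g)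
    (e : D.tri c z (D.rev (R.ρ d (g - 1))) = D.tri c z (D.rev (R.ρ d (f - 1)))) : False := by
  obtain ⟨⟨f0, fL, -, -⟩, -⟩ := hf
  obtain ⟨⟨g0, gL, -, gm⟩, -⟩ := hg
  have bf := fun i (hi : i < f) => R.back_step d (D.bw (R.l d) f z) fL.le hi
  have bg := fun i (hi : i < f) => R.back_step d (D.bw (R.l d) g z) gL.le (hi.trans h)
  have k := D.follow (c := c) (!d.2) f (fun i => D.rev (R.ρ d (g - 1 - i)))
    (fun i => D.rev (R.ρ d (f - 1 - i))) (fun i => D.fw (R.l d) (g - i) (D.bw (R.l d) g z))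
    (fun i => D.fw (R.l d) (f - i) (D.bw (R.l d) f z)) (fun i hi => (bg i hi).1)
    (fun i hi => (bg i hi).2.1) (fun i hi => by rw [(bg _ hi).2.2.1, (bg i (by omega)).2.2.2.1])
    (fun i hi => by rw [(bg i hi).2.2.2.2, Dir.inv, R.sign]) (fun i hi => (bf i hi).1)
    (fun i hi => (bf i hi).2.1) (fun i hi => by rw [(bf _ hi).2.2.1, (bf i (by omega)).2.2.2.1])
    (fun i hi => by rw [(bf i hi).2.2.2.2, Dir.inv, R.sign])
    (by simp only [Nat.sub_zero, D.fw_bw]) (by simpa only [Nat.sub_zero, D.fw_bw] using e)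
    (fun i h0 hi => by rw [(bg i hi).2.2.1]; exact gm _ (by omega) (by omega))
  obtain ⟨-, -, k4⟩ := k (f - 1) (by omega)
  have f1 : f - 1 + 1 = f := by omega
  rw [(bg _ (by omega)).2.2.2.1, (bf _ (by omega)).2.2.2.1, f1, Nat.sub_self, R.r_zero] at k4
  exact gm (g - f) (by omega) (by omega) (Or.inl k4)

theorem bad_card (c : X → V → V) (z : X) (d : Dir) :
    ((range R.L).filter fun f => R.BadAt c (D.bw (R.l d) f z) d f).card ≤ (D.SD c z).card := by
  refine card_le_card_of_injOn (fun f => D.tri c z (D.rev (R.ρ d (f - 1)))) (fun f hf => ?_)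
    fun f hf g hg e => ?_
  · obtain ⟨⟨f0, fL, -, -⟩, k⟩ := (mem_filter.1 hf).2
    have b := R.back_step d (D.bw (R.l d) f z) fL.le f0
    simp only [Nat.sub_zero, D.fw_bw] at b k
    exact mem_filter.2 ⟨D.tri_mem b.1, by simpa only [tri, b.2.2.1] using k⟩
  · rcases lt_trichotomy f g with h | h | h
    · exact (R.bad_lt (mem_filter.1 hf).2 (mem_filter.1 hg).2 h e.symm).elim
    · exact h
    · exact (R.bad_lt (mem_filter.1 hg).2 (mem_filter.1 hf).2 h e).elim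

omit R in
theorem bad_base {c : X → V → V} {x : X} (h : D.Df c x (c x D.base)) : 1 ≤ (D.SD c x).card :=
  card_pos.2 ⟨_, mem_filter.2 ⟨D.tri_mem (D.bd_mem (true, true) x), by
    simpa only [tri, D.bd_org] using h⟩⟩

end Rays

end DG

end Vale.Agent.P189
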